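import Vale.Agent.P207.N4.Dim
import Vale.Agent.P207.N4.H229.Bus
import Vale.Agent.P207.N4.H266.TauB
import Vale.Agent.P207.H957.Crit

/-!
# P207: the stable holonomy and the function `D` in the Darboux chart, first part

Calculus of the Busemann functions on the discs (`Bus`): gradients and Hessians depend continuously
on everything, uniform bounds, the geodesics are the critical points of `b_ξ + b_η`, uniform
positivity of the Hessian of `b_ξ + b_η` near a transversal geodesic.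
-/

set_option linter.unusedSectionVars false

open Set Filter Topology Metric
open scoped ContDiff

noncomputable section

namespace Vale.Agent.P207.N4.H957

open Vale.Agent.P207.N3 Vale.Agent.P207.N4.Ten Vale.Agent.P207.H957

variable [Dim]

/-! ### gradients and Hessians of families -/

/-- the Riesz isomorphism as a continuous linear map -/
def rz : (E2 →L[ℝ] ℝ) →L[ℝ] E2 :=
  LinearMap.mkContinuous
    { toFun := fun l => (InnerProductSpace.toDual ℝ E2).symm l
      map_add' := fun a b => map_add _ a b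
      map_smul' := fun c a => by simp } 1
    (fun l => by
      change ‖(InnerProductSpace.toDual ℝ E2).symm l‖ ≤ 1 * ‖l‖
      rw [LinearIsometryEquiv.norm_map, one_mul])

theorem gradient_eq_rz (f : E2 → ℝ) : gradient f = fun x => rz (fderiv ℝ f x) := rfl

section JCg

variable {Z : Type} [TopologicalSpace Z] {f : Z → E2 → ℝ} {S : Set (Z × E2)}

theorem jc_grad (h : JC f S) : JC (fun z => gradient (f z)) S := h.fderiv.clm rz

theorem jc_hess (h : JC f S) : JC (fun z => hess (f z)) S := (jc_grad h).fderiv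

end JCg

theorem grad_congr {f g : E2 → ℝ} {q : E2} (h : f =ᶠ[𝓝 q] g) : gradient f q = gradient g q := by
  rw [gradient_eq_rz, gradient_eq_rz]
  simp only [h.fderiv_eq]

theorem grad_congr' {f g : E2 → ℝ} {q : E2} (h : f =ᶠ[𝓝 q] g) : gradient f =ᶠ[𝓝 q] gradient g := by
  filter_upwards [h.eventuallyEq_nhds] with x hx
  exact grad_congr hx

theorem hess_congr {f g : E2 → ℝ} {q : E2} (h : f =ᶠ[𝓝 q] g) : hess f q = hess g q :=
  (grad_congr' h).fderiv_eq

theorem dhess_congr {f g : E2 → ℝ} {q : E2} (h : f =ᶠ[𝓝 q] g) :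
    fderiv ℝ (hess f) q = fderiv ℝ (hess g) q := by
  have : hess f =ᶠ[𝓝 q] hess g := by
    filter_upwards [h.eventuallyEq_nhds] with x hx
    exact hess_congr hx
  exact this.fderiv_eq

/-! ### compactness -/

/-- neighbourhoods of the zero set of a function on a compact set -/
theorem gl {Y : Type*} [TopologicalSpace Y] {K : Set Y} (hK : IsCompact K) {f : Y → ℝ}
    (hf : ContinuousOn f K) (h0 : ∀ y ∈ K, 0 ≤ f y) {O : Set Y} (hO : IsOpen O)
    (hZ : ∀ y ∈ K, f y = 0 → y ∈ O) : ∃ ε > 0, ∀ y ∈ K, f y < ε → y ∈ O := by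
  have hC : IsCompact (K \ O) := hK.diff hO
  rcases (K \ O).eq_empty_or_nonempty with he | hne
  · refine ⟨1, one_pos, fun y hy _ => ?_⟩
    by_contra h
    have : y ∈ K \ O := ⟨hy, h⟩
    rw [he] at this
    exact this
  · obtain ⟨y₀, hy₀, hmin⟩ := hC.exists_isMinOn hne (hf.mono sdiff_subset)
    have hpos : 0 < f y₀ := by
      rcases eq_or_lt_of_le (h0 y₀ hy₀.1) with h | h
      · exact absurd (hZ y₀ hy₀.1 h.symm) hy₀.2
      · exact h
    refine ⟨f y₀, hpos, fun y hy hlt => ?_⟩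
    by_contra h
    exact absurd (hmin (show y ∈ K \ O from ⟨hy, h⟩)) (not_le.2 hlt)

theorem exists_pos_lb {Y : Type*} [TopologicalSpace Y] {K : Set Y} (hK : IsCompact K) {f : Y → ℝ}
    (hf : ContinuousOn f K) (h0 : ∀ y ∈ K, 0 < f y) : ∃ c > 0, ∀ y ∈ K, c ≤ f y := by
  rcases K.eq_empty_or_nonempty with he | hne
  · exact ⟨1, one_pos, fun y hy => by rw [he] at hy; exact absurd hy (notMem_empty y)⟩
  · obtain ⟨y₀, hy₀, hmin⟩ := hK.exists_isMinOn hne hf
    exact ⟨f y₀, h0 y₀ hy₀, fun y hy => hmin hy⟩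

variable {Γ X B : Type} [Group Γ] [MetricSpace X] [ProperSpace X] [MulAction Γ X]
  [IsIsometricSMul Γ X] [TopologicalSpace B] [CompactSpace B] [T2Space B] [MulAction Γ B]
  [ContinuousConstSMul Γ B] {L : Leaf Γ X B} {T : Tens L} (W : Bus L T)

/-! ### the Busemann functions -/

theorem be_cd (x : X) (ξ : B) : ContDiffOn ℝ ∞ (W.be x ξ) (ball 0 3) :=
  (W.be_jc.smooth (x, ξ)).mono fun _ hq => ⟨mem_univ _, hq⟩

theorem be_cda {q : E2} (x : X) (ξ : B) (hq : q ∈ ball (0 : E2) 3) :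
    ContDiffAt ℝ ∞ (W.be x ξ) q := (be_cd W x ξ).contDiffAt (isOpen_ball.mem_nhds hq)

theorem be_diff {q : E2} (x : X) (ξ : B) (hq : q ∈ ball (0 : E2) 3) :
    DifferentiableAt ℝ (W.be x ξ) q := (be_cda W x ξ hq).differentiableAt (by simp)

theorem grad_jc : JC (fun (p : X × B) q => gradient (W.be p.1 p.2) q) (univ ×ˢ ball 0 3) :=
  jc_grad W.be_jc

theorem hess_jc : JC (fun (p : X × B) q => hess (W.be p.1 p.2) q) (univ ×ˢ ball 0 3) :=
  jc_hess W.be_jc

theorem grad_diff {q : E2} (x : X) (ξ : B) (hq : q ∈ ball (0 : E2) 3) :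
    DifferentiableAt ℝ (gradient (W.be x ξ)) q :=
  (grad_jc W).differentiableAt (p := ((x, ξ), q)) ⟨mem_univ _, hq⟩

theorem hess_diff {q : E2} (x : X) (ξ : B) (hq : q ∈ ball (0 : E2) 3) :
    DifferentiableAt ℝ (hess (W.be x ξ)) q :=
  (hess_jc W).differentiableAt (p := ((x, ξ), q)) ⟨mem_univ _, hq⟩

theorem be_smul_ev (g : Γ) (x : X) (ξ : B) {q : E2} (hq : q ∈ ball (0 : E2) 3) :
    W.be (g • x) (g • ξ) =ᶠ[𝓝 q] W.be x ξ := by
  filter_upwards [isOpen_ball.mem_nhds hq] with s hs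
  exact W.be_smul g x ξ s hs

theorem be_flip_ev (x : X) (ξ : B) {q : E2} (hq : q ∈ ball (0 : E2) 3) :
    W.be (L.flip x) ξ =ᶠ[𝓝 q] W.be x ξ := by
  filter_upwards [isOpen_ball.mem_nhds hq] with s hs
  exact W.be_flip x ξ s hs

/-- `lv + lp` depends only on the end points -/
theorem lvlp (W : Bus L T) {z z' : X} (h1 : L.em z = L.em z') (h2 : L.ep z = L.ep z') :
    L.lv z + L.lp z = L.lv z' + L.lp z' := by
  have h3 := W.le z' z
  have h4 := W.le z z'
  rw [h1, h2, W.b_em, W.b_ep] at h3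
  rw [← h1, ← h2, W.b_em, W.b_ep] at h4
  exact le_antisymm h3 h4

/-- the geodesic minimises `b_ξ + b_η` -/
theorem min_en (x : X) (ξ : B) {q s : E2} (hq : q ∈ ball (0 : E2) 3) (hs : s ∈ ball (0 : E2) 3) :
    W.be x ξ q + W.be x (W.en x ξ q) q ≤ W.be x ξ s + W.be x (W.en x ξ q) s := by
  obtain ⟨z, h1, h2, h3⟩ := W.exists_fr x ξ q hq
  obtain ⟨z', -, -, h3'⟩ := W.exists_fr x ξ s hs
  have h4 := W.le z' z
  have h5 : L.lv z + L.lp z = W.b ξ z + W.b (W.en x ξ q) z := by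
    rw [← W.b_em z, ← W.b_ep z, h1, h2]
  rw [h5, h1, h2, h3, h3, h3', h3'] at h4
  linarith

theorem grad_add {f g : E2 → ℝ} {q : E2} (hf : DifferentiableAt ℝ f q)
    (hg : DifferentiableAt ℝ g q) :
    gradient (fun s => f s + g s) q = gradient f q + gradient g q := by
  rw [gradient_eq_rz, gradient_eq_rz, gradient_eq_rz]
  simp only
  rw [fderiv_fun_add hf hg, map_add]

theorem crit_en (x : X) (ξ : B) {q : E2} (hq : q ∈ ball (0 : E2) 3) :
    gradient (W.be x ξ) q + gradient (W.be x (W.en x ξ q)) q = 0 := by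
  have h1 : IsLocalMin (fun s => W.be x ξ s + W.be x (W.en x ξ q) s) q := by
    filter_upwards [isOpen_ball.mem_nhds hq] with s hs
    exact min_en W x ξ hq hs
  rw [← grad_add (be_diff W x ξ hq) (be_diff W x _ hq), gradient_eq_rz]
  simp only
  rw [h1.fderiv_eq_zero, map_zero]

/-- a transversal critical point of `b_ξ + b_η` on the disc is a point of the geodesic -/
theorem en_of_crit (x : X) (ξ η : B) {q : E2} (hq : q ∈ ball (0 : E2) 3) (h1 : 0 ≤ W.nu x ξ q)
    (h2 : W.nu x η q ≤ 0) (h3 : gradient (W.be x ξ) q + gradient (W.be x η) q = 0) :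
    W.en x ξ q = η := by
  have h4 := crit_en W x ξ hq
  have h5 : gradient (W.be x (W.en x ξ q)) q = gradient (W.be x η) q := by
    have := h4.trans h3.symm
    exact add_left_cancel this
  refine W.cov_inj (L.flip x) _ _ q hq ?_ ?_ ?_
  · rw [W.nu_flip x _ q hq, W.nu_en x ξ q hq, neg_neg]; exact h1
  · rw [W.nu_flip x _ q hq]; linarith
  · rw [grad_congr (be_flip_ev W x _ hq), grad_congr (be_flip_ev W x _ hq)]; exact h5

/-- the value of `D` at a point of the geodesic -/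
theorem D_at (x : X) (ξ : B) {q : E2} (hq : q ∈ ball (0 : E2) 3) {z : X} (h1 : L.em z = ξ)
    (h2 : L.ep z = W.en x ξ q) :
    L.lv z + L.lp z = W.b ξ x + W.b (W.en x ξ q) x + W.be x ξ q + W.be x (W.en x ξ q) q := by
  obtain ⟨y, e1, e2, e3⟩ := W.exists_fr x ξ q hq
  rw [lvlp W (h1.trans e1.symm) (h2.trans e2.symm), ← W.b_em y, ← W.b_ep y, e1, e2, e3, e3]
  ring

/-! ### invariance and uniform bounds -/

/-- bounds of invariant continuous functions -/
theorem bdd_inv {F : Type*} [NormedAddCommGroup F] (Φ : X → B → E2 → F)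
    (hc : ContinuousOn (fun p : (X × B) × E2 => Φ p.1.1 p.1.2 p.2) (univ ×ˢ ball 0 3))
    (hi : ∀ (g : Γ) x ξ, ∀ q ∈ ball (0 : E2) 3, Φ (g • x) (g • ξ) q = Φ x ξ q) (L : Leaf Γ X B) :
    ∃ M, 0 ≤ M ∧ ∀ x ξ, ∀ q ∈ closedBall (0 : E2) (5 / 2), ‖Φ x ξ q‖ ≤ M := by
  obtain ⟨K, hK, hcov⟩ := L.cocompact
  have hcomp : IsCompact ((K ×ˢ (univ : Set B)) ×ˢ closedBall (0 : E2) (5 / 2)) :=
    (hK.prod isCompact_univ).prod (isCompact_closedBall _ _)
  have hsub : (K ×ˢ (univ : Set B)) ×ˢ closedBall (0 : E2) (5 / 2) ⊆ univ ×ˢ ball (0 : E2) 3 :=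
    fun p hp => ⟨mem_univ _, closedBall_subset_ball (by norm_num) hp.2⟩
  obtain ⟨M, hM⟩ := hcomp.exists_bound_of_continuousOn (hc.mono hsub)
  refine ⟨max M 0, le_max_right _ _, fun x ξ q hq => ?_⟩
  obtain ⟨g, hg⟩ := hcov x
  rw [← hi g x ξ q (closedBall_subset_ball (by norm_num) hq)]
  exact (hM ((g • x, g • ξ), q) ⟨⟨hg, mem_univ _⟩, hq⟩).trans (le_max_left _ _)

theorem hess_bound : ∃ M, 0 ≤ M ∧ ∀ x ξ, ∀ q ∈ closedBall (0 : E2) (5 / 2),
    ‖hess (W.be x ξ) q‖ ≤ M :=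
  bdd_inv (fun x ξ q => hess (W.be x ξ) q) (hess_jc W).continuousOn
    (fun g x ξ _ hq => hess_congr (be_smul_ev W g x ξ hq)) L

theorem dhess_bound : ∃ M, 0 ≤ M ∧ ∀ x ξ, ∀ q ∈ closedBall (0 : E2) (5 / 2),
    ‖fderiv ℝ (hess (W.be x ξ)) q‖ ≤ M :=
  bdd_inv (fun x ξ q => fderiv ℝ (hess (W.be x ξ)) q) (hess_jc W).fderiv.continuousOn
    (fun g x ξ _ hq => dhess_congr (be_smul_ev W g x ξ hq)) L

/-- all derivatives are bounded, uniformly -/
theorem be_bound (k : ℕ) : ∃ M, 0 ≤ M ∧ ∀ x ξ, ∀ q ∈ closedBall (0 : E2) (5 / 2),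
    ‖iteratedFDeriv ℝ k (W.be x ξ) q‖ ≤ M :=
  bdd_inv (fun x ξ q => iteratedFDeriv ℝ k (W.be x ξ) q) (W.be_jc.cont k)
    (fun g x ξ _ hq => ((be_smul_ev W g x ξ hq).iteratedFDeriv ℝ k).eq_of_nhds) L

end Vale.Agent.P207.N4.H957
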