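import Vale.Agent.P207.N4.H957.DHa

/-!
# P207: the stable holonomy and the function `D` in the Darboux chart, second part

Uniform transversality and the uniform strong convexity of `b_ξ + b_η` on small discs, for `ξ` near
`em x`: `Nr ε x ξ` says that the direction of the geodesic from `ξ` at the foot point of `x` is
`ε`-close to the direction of `x`.
-/

set_option linter.unusedSectionVars false

open Set Filter Topology Metric
open scoped ContDiff

noncomputable section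

namespace Vale.Agent.P207.N4.H957

open Vale.Agent.P207.N3 Vale.Agent.P207.N4.Ten Vale.Agent.P207.H957

variable [Dim]

variable {Γ X B : Type} [Group Γ] [MetricSpace X] [ProperSpace X] [MulAction Γ X]
  [IsIsometricSMul Γ X] [TopologicalSpace B] [CompactSpace B] [T2Space B] [MulAction Γ B]
  [ContinuousConstSMul Γ B] {L : Leaf Γ X B} {T : Tens L} (W : Bus L T)

theorem mem_ball_of_cb {q : E2} {r : ℝ} (hr : r < 3) (hq : q ∈ closedBall (0 : E2) r) :
    q ∈ ball (0 : E2) 3 := closedBall_subset_ball hr hq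

/-! ### transversality -/

theorem exists_trans : ∃ r, 0 < r ∧ r ≤ 1 ∧ ∀ x, ∀ q ∈ closedBall (0 : E2) r,
    0 < W.nu x (L.em x) q := by
  obtain ⟨K, hK, hcov⟩ := L.cocompact
  have hcomp : IsCompact (K ×ˢ closedBall (0 : E2) 1) := hK.prod (isCompact_closedBall _ _)
  have hopen : IsOpen {p : X × E2 | p.2 ∈ ball (0 : E2) 3 ∧ 0 < W.nu p.1 (L.em p.1) p.2} := by
    have h1 : ContinuousOn (fun p : X × E2 => W.nu p.1 (L.em p.1) p.2)
        {p : X × E2 | p.2 ∈ ball (0 : E2) 3} := by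
      have h2 : Continuous fun p : X × E2 => (((p.1, L.em p.1), p.2) : (X × B) × E2) := by
        have := L.em_cont
        fun_prop
      exact W.nu_cont.comp h2.continuousOn fun p hp => ⟨mem_univ _, hp⟩
    exact h1.isOpen_inter_preimage (isOpen_ball.preimage continuous_snd) isOpen_Ioi
  obtain ⟨ε, hε, h⟩ := gl hcomp (f := fun p : X × E2 => ‖p.2‖) (by fun_prop)
    (fun _ _ => norm_nonneg _) hopen (fun p hp h0 => by
      have h1 : p.2 = 0 := norm_eq_zero.1 h0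
      refine ⟨by rw [h1]; exact mem_ball0, ?_⟩
      rw [h1]
      exact W.nu_em p.1)
  refine ⟨min (ε / 2) 1, by positivity, min_le_right _ _, fun x q hq => ?_⟩
  rw [mem_closedBall_zero_iff] at hq
  obtain ⟨g, hg⟩ := hcov x
  have hq3 : q ∈ ball (0 : E2) 3 := by
    rw [mem_ball_zero_iff]
    have := hq.trans (min_le_right _ _)
    linarith
  have h1 := (h (g • x, q) ⟨hg, mem_closedBall_zero_iff.2 (hq.trans (min_le_right _ _))⟩ (by
    have := hq.trans (min_le_left _ _)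
    change ‖q‖ < ε
    linarith)).2
  simp only at h1
  rwa [L.em_smul, W.nu_smul g x _ q hq3] at h1

/-! ### the frame of the estimates -/

/-- the Hessian of `b_ξ + b_η` at the point `q` of the disc, `η = en x ξ q` -/
def HH (x : X) (ξ : B) (q : E2) : E2 →L[ℝ] E2 := hess (W.be x ξ) q + hess (W.be x (W.en x ξ q)) q

theorem em3_cont : Continuous (fun p : X × E2 => (((p.1, L.em p.1), p.2) : (X × B) × E2)) := by
  have := L.em_cont
  fun_prop

theorem HH_cont : ContinuousOn (fun p : (X × B) × E2 => HH W p.1.1 p.1.2 p.2)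
    (univ ×ˢ ball 0 3) := by
  have h2 : ContinuousOn (fun p : (X × B) × E2 => (((p.1.1, W.en p.1.1 p.1.2 p.2), p.2) :
      (X × B) × E2)) (univ ×ˢ ball 0 3) :=
    ((continuous_fst.comp continuous_fst).continuousOn.prodMk W.en_cont).prodMk continuousOn_snd
  exact (hess_jc W).continuousOn.add
    ((hess_jc W).continuousOn.comp h2 fun p hp => ⟨mem_univ _, hp.2⟩)

theorem HH_smul (g : Γ) (x : X) (ξ : B) {q : E2} (hq : q ∈ ball (0 : E2) 3) :
    HH W (g • x) (g • ξ) q = HH W x ξ q := by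
  unfold HH
  rw [W.en_smul g x ξ q hq, hess_congr (be_smul_ev W g x _ hq),
    hess_congr (be_smul_ev W g x _ hq)]

theorem exists_HH_pos {r : ℝ} (hr : r < 3) (htr : ∀ x, ∀ q ∈ closedBall (0 : E2) r,
    0 < W.nu x (L.em x) q) : ∃ c > 0, ∀ x, ∀ q ∈ closedBall (0 : E2) r, ∀ v,
      c * ‖v‖ ^ 2 ≤ inner ℝ (HH W x (L.em x) q v) v := by
  obtain ⟨K, hK, hcov⟩ := L.cocompact
  have hcomp : IsCompact ((K ×ˢ closedBall (0 : E2) r) ×ˢ sphere (0 : E2) 1) :=
    (hK.prod (isCompact_closedBall _ _)).prod (isCompact_sphere _ _)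
  have hcont : ContinuousOn (fun p : (X × E2) × E2 =>
      inner ℝ (HH W p.1.1 (L.em p.1.1) p.1.2 p.2) p.2)
      ((K ×ˢ closedBall (0 : E2) r) ×ˢ sphere (0 : E2) 1) := by
    have h1 : ContinuousOn (fun p : (X × E2) × E2 => HH W p.1.1 (L.em p.1.1) p.1.2)
        ((K ×ˢ closedBall (0 : E2) r) ×ˢ sphere (0 : E2) 1) :=
      (HH_cont W).comp (f := fun p : (X × E2) × E2 => (((p.1.1, L.em p.1.1), p.1.2) : (X × B) × E2))
        ((em3_cont (L := L)).comp continuous_fst).continuousOn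
        fun p hp => ⟨mem_univ _, mem_ball_of_cb hr hp.1.2⟩
    exact (h1.clm_apply continuousOn_snd).inner continuousOn_snd
  obtain ⟨c, hc, h⟩ := exists_pos_lb hcomp hcont (by
    rintro ⟨⟨x, q⟩, v⟩ ⟨⟨hx, hq⟩, hv⟩
    have hv0 : v ≠ 0 := by
      rintro rfl
      simp at hv
    exact W.pos x (L.em x) q (mem_ball_of_cb hr hq) (htr x q hq).ne' v hv0)
  refine ⟨c, hc, fun x q hq v => ?_⟩
  obtain ⟨g, hg⟩ := hcov x
  rcases eq_or_ne v 0 with rfl | hv
  · simp
  have hn : 0 < ‖v‖ := norm_pos_iff.2 hv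
  have h1 := h ((g • x, q), ‖v‖⁻¹ • v) ⟨⟨hg, hq⟩, by
    rw [mem_sphere_zero_iff_norm, norm_smul, norm_inv, norm_norm, inv_mul_cancel₀ hn.ne']⟩
  simp only [map_smul, inner_smul_left, inner_smul_right, RCLike.conj_to_real] at h1
  rw [L.em_smul, HH_smul W g x _ (mem_ball_of_cb hr hq)] at h1
  have h2 : c * ‖v‖ ^ 2 ≤ ‖v‖⁻¹ * (‖v‖⁻¹ * inner ℝ (HH W x (L.em x) q v) v) * ‖v‖ ^ 2 := by gcongr
  have h3 : ‖v‖⁻¹ * (‖v‖⁻¹ * inner ℝ (HH W x (L.em x) q v) v) * ‖v‖ ^ 2
      = inner ℝ (HH W x (L.em x) q v) v := by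
    field_simp
  rwa [h3] at h2

/-! ### leaves near the leaf of `x` -/

/-- the leaf of `ξ` is near the leaf of `em x` at the foot point of `x` -/
def Nr (ε : ℝ) (x : X) (ξ : B) : Prop := 0 ≤ W.nu x ξ 0 ∧ ‖gradient (W.be x ξ) 0‖ < ε

theorem Nr_em {ε : ℝ} (hε : 0 < ε) (x : X) : Nr W ε x (L.em x) :=
  ⟨(W.nu_em x).le, by rw [W.be_crit, norm_zero]; exact hε⟩

theorem Nr.mono {ε ε' : ℝ} {x : X} {ξ : B} (h : Nr W ε x ξ) (hε : ε ≤ ε') : Nr W ε' x ξ :=
  ⟨h.1, h.2.trans_le hε⟩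

theorem nu0_cont : Continuous fun p : X × B => W.nu p.1 p.2 0 := by
  have h2 : Continuous fun p : X × B => ((p, (0 : E2)) : (X × B) × E2) := by fun_prop
  have h3 := W.nu_cont.comp h2.continuousOn (s := univ) fun p _ => ⟨mem_univ _, mem_ball0⟩
  exact continuousOn_univ.1 h3

theorem grad0_cont : Continuous fun p : X × B => gradient (W.be p.1 p.2) 0 := by
  have h2 : Continuous fun p : X × B => ((p, (0 : E2)) : (X × B) × E2) := by fun_prop
  have h3 := (grad_jc W).continuousOn.comp h2.continuousOn (s := univ)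
    fun p _ => ⟨mem_univ _, mem_ball0⟩
  exact continuousOn_univ.1 h3

theorem Nr_smul {ε : ℝ} (g : Γ) {x : X} {ξ : B} (h : Nr W ε x ξ) : Nr W ε (g • x) (g • ξ) := by
  refine ⟨?_, ?_⟩
  · rw [W.nu_smul g x ξ 0 mem_ball0]; exact h.1
  · rw [grad_congr (be_smul_ev W g x ξ mem_ball0)]; exact h.2

/-- the set of `(x, ξ, ξ')` with `x` in a compact set and `nu x ξ 0, nu x ξ' 0 ≥ 0` is compact -/
theorem compact_side {K : Set X} (hK : IsCompact K) :
    IsCompact {p : X × (B × B) | p.1 ∈ K ∧ 0 ≤ W.nu p.1 p.2.1 0 ∧ 0 ≤ W.nu p.1 p.2.2 0} := by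
  have h1 : Continuous fun p : X × (B × B) => W.nu p.1 p.2.1 0 :=
    (nu0_cont W).comp (f := fun p : X × (B × B) => ((p.1, p.2.1) : X × B)) (by fun_prop)
  have h1' : Continuous fun p : X × (B × B) => W.nu p.1 p.2.2 0 :=
    (nu0_cont W).comp (f := fun p : X × (B × B) => ((p.1, p.2.2) : X × B)) (by fun_prop)
  have h2 : {p : X × (B × B) | p.1 ∈ K ∧ 0 ≤ W.nu p.1 p.2.1 0 ∧ 0 ≤ W.nu p.1 p.2.2 0}
      = ((K ×ˢ (univ : Set (B × B))) ∩ {p | 0 ≤ W.nu p.1 p.2.1 0}) ∩ {p | 0 ≤ W.nu p.1 p.2.2 0} := by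
    ext p
    simp only [mem_setOf_eq, mem_inter_iff, mem_prod, mem_univ, and_true]
    tauto
  rw [h2]
  exact ((hK.prod isCompact_univ).inter_right (isClosed_le continuous_const h1)).inter_right
    (isClosed_le continuous_const h1')

/-- a covector which vanishes is the covector of `em x` -/
theorem eq_em {x : X} {ξ : B} (h1 : 0 ≤ W.nu x ξ 0) (h2 : gradient (W.be x ξ) 0 = 0) :
    ξ = L.em x :=
  W.cov_inj x ξ (L.em x) 0 mem_ball0 h1 (W.nu_em x).le (h2.trans (W.be_crit x).symm)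

/-- **uniformity near the leaf of `x`**: an open invariant property of `(x, ξ, ξ', q, s)`, true for
`ξ = ξ' = em x`, `s = q`, `|q| ≤ r`, holds when `ξ, ξ'` are near `em x` and `‖s - q‖` is small. -/
theorem near {r : ℝ} {O : Set ((X × (B × B)) × (E2 × E2))} (hO : IsOpen O)
    (hinv : ∀ (g : Γ) x ξ ξ' q s, ((g • x, (g • ξ, g • ξ')), (q, s)) ∈ O →
      ((x, (ξ, ξ')), (q, s)) ∈ O)
    (h0 : ∀ x, ∀ q ∈ closedBall (0 : E2) r, ((x, (L.em x, L.em x)), (q, q)) ∈ O) :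
    ∃ ε > 0, ∀ x ξ ξ', Nr W ε x ξ → Nr W ε x ξ' → ∀ q ∈ closedBall (0 : E2) r,
      ∀ s, ‖s - q‖ < ε → ((x, (ξ, ξ')), (q, s)) ∈ O := by
  obtain ⟨K, hK, hcov⟩ := L.cocompact
  have hcomp : IsCompact ({p : X × (B × B) | p.1 ∈ K ∧ 0 ≤ W.nu p.1 p.2.1 0 ∧
      0 ≤ W.nu p.1 p.2.2 0} ×ˢ (closedBall (0 : E2) r ×ˢ closedBall (0 : E2) (r + 1))) :=
    (compact_side W hK).prod ((isCompact_closedBall _ _).prod (isCompact_closedBall _ _))
  have hcont : Continuous fun p : (X × (B × B)) × (E2 × E2) =>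
      ‖gradient (W.be p.1.1 p.1.2.1) 0‖ + ‖gradient (W.be p.1.1 p.1.2.2) 0‖
        + ‖p.2.2 - p.2.1‖ := by
    have h1 : Continuous fun p : (X × (B × B)) × (E2 × E2) => gradient (W.be p.1.1 p.1.2.1) 0 :=
      (grad0_cont W).comp (f := fun p : (X × (B × B)) × (E2 × E2) => ((p.1.1, p.1.2.1) : X × B))
        (by fun_prop)
    have h1' : Continuous fun p : (X × (B × B)) × (E2 × E2) => gradient (W.be p.1.1 p.1.2.2) 0 :=
      (grad0_cont W).comp (f := fun p : (X × (B × B)) × (E2 × E2) => ((p.1.1, p.1.2.2) : X × B))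
        (by fun_prop)
    fun_prop
  obtain ⟨ε, hε, h⟩ := gl hcomp hcont.continuousOn (fun _ _ => by positivity) hO (by
    rintro ⟨⟨x, ⟨ξ, ξ'⟩⟩, ⟨q, s⟩⟩ ⟨⟨-, hnu, hnu'⟩, ⟨hq, -⟩⟩ hz
    simp only at hz hnu hnu' hq
    have n1 := norm_nonneg (s - q)
    have n2 := norm_nonneg (gradient (W.be x ξ) 0)
    have n3 := norm_nonneg (gradient (W.be x ξ') 0)
    have h1 : ‖gradient (W.be x ξ) 0‖ = 0 := le_antisymm (by linarith) n2
    have h1' : ‖gradient (W.be x ξ') 0‖ = 0 := le_antisymm (by linarith) n3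
    have h2 : ‖s - q‖ = 0 := le_antisymm (by linarith) n1
    have h3 : ξ = L.em x := eq_em W hnu (norm_eq_zero.1 h1)
    have h3' : ξ' = L.em x := eq_em W hnu' (norm_eq_zero.1 h1')
    have h4 : s = q := sub_eq_zero.1 (norm_eq_zero.1 h2)
    subst h3 h3' h4
    exact h0 x s hq)
  refine ⟨min (ε / 3) 1, by positivity, fun x ξ ξ' hξ hξ' q hq s hs => ?_⟩
  obtain ⟨g, hg⟩ := hcov x
  apply hinv g
  have k1 := Nr_smul W g hξ
  have k2 := Nr_smul W g hξ'
  refine h ((g • x, (g • ξ, g • ξ')), (q, s)) ⟨⟨hg, k1.1, k2.1⟩, ⟨hq, ?_⟩⟩ ?_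
  · rw [mem_closedBall_zero_iff] at hq ⊢
    have h1 : ‖s - q‖ ≤ 1 := (hs.le).trans (min_le_right _ _)
    calc ‖s‖ = ‖q + (s - q)‖ := by congr 1; abel
      _ ≤ ‖q‖ + ‖s - q‖ := norm_add_le _ _
      _ ≤ r + 1 := by linarith
  · simp only
    have h1 := k1.2.trans_le (min_le_left _ _)
    have h1' := k2.2.trans_le (min_le_left _ _)
    have h2 := hs.trans_le (min_le_left _ _)
    linarith

end Vale.Agent.P207.N4.H957
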