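import Vale.Agent.P207.N4.H957.DHb

/-!
# P207: the stable holonomy and the function `D` in the Darboux chart

Chart of the frame `x`: the leaf of `ξ` is the graph of `∇ (be x ξ)`. `exists_DH`: for `q` in the
disc of radius `r` and two leaves `ξ, ξ'` near `em x` there is exactly one point `q'` near `q` with
`en x ξ' q' = en x ξ q` (the stable holonomy from `ξ` to `ξ'`). With
`π = pp x ξ ξ' q = ∇ (be x ξ' - be x ξ) (q)`, `κ = kk x ξ ξ' q = ‖Hess (be x ξ' - be x ξ) (q)‖`,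
`H = HH x ξ q = Hess (b_ξ + b_η) (q)`:

* `q' - q = O(|π|)`, `H (q' - q) + π(q') = O(|π|²)`, `H (q' - q) + π = O(|π|² + κ |π|)`,
* `D(ξ', η) - D(ξ, η) = (be x ξ' - be x ξ) (q) + const + O(|π|²)`, `η = en x ξ q`,
* the same `- ½ ⟪H⁻¹ π, π⟫ + O(|π|³ + κ |π|²)`.
-/

set_option linter.unusedSectionVars false

open Set Filter Topology Metric
open scoped ContDiff

noncomputable section

namespace Vale.Agent.P207.N4.H957

open Vale.Agent.P207.N3 Vale.Agent.P207.N4.Ten Vale.Agent.P207.H957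

variable [Dim]

variable {Γ X B : Type} [Group Γ] [MetricSpace X] [ProperSpace X] [MulAction Γ X]
  [IsIsometricSMul Γ X] [TopologicalSpace B] [CompactSpace B] [T2Space B] [MulAction Γ B]
  [ContinuousConstSMul Γ B] {L : Leaf Γ X B} {T : Tens L} (W : Bus L T)

/-- the covector of the leaf of `ξ'` relative to the leaf of `ξ`, at the point `q` of the disc -/
def pp (x : X) (ξ ξ' : B) (q : E2) : E2 := gradient (W.be x ξ') q - gradient (W.be x ξ) q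

/-- the size of the difference of the Hessians -/
def kk (x : X) (ξ ξ' : B) (q : E2) : ℝ := ‖hess (W.be x ξ') q - hess (W.be x ξ) q‖

theorem pp_smul (g : Γ) (x : X) (ξ ξ' : B) {q : E2} (hq : q ∈ ball (0 : E2) 3) :
    pp W (g • x) (g • ξ) (g • ξ') q = pp W x ξ ξ' q := by
  unfold pp
  rw [grad_congr (be_smul_ev W g x _ hq), grad_congr (be_smul_ev W g x _ hq)]

theorem pp_self (x : X) (ξ : B) (q : E2) : pp W x ξ ξ q = 0 := sub_self _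

/-- The stable holonomy and the function `D` in the Darboux chart, with uniform constants. -/
structure DH (r ρ ε c M : ℝ) : Prop where
  r_pos : 0 < r
  r_le : r ≤ 3 / 2
  ρ_pos : 0 < ρ
  ρ_le : ρ ≤ 1 / 2
  ε_pos : 0 < ε
  c_pos : 0 < c
  M_nn : 0 ≤ M
  tr : ∀ x ξ, Nr W ε x ξ → ∀ q ∈ closedBall (0 : E2) r, ∀ s ∈ closedBall q ρ, 0 < W.nu x ξ s
  tr' : ∀ x ξ, Nr W ε x ξ → ∀ q ∈ closedBall (0 : E2) r, ∀ s ∈ closedBall q ρ,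
    W.nu x (W.en x ξ q) s < 0
  pos : ∀ x ξ, Nr W ε x ξ → ∀ q ∈ closedBall (0 : E2) r, ∀ v,
    c * ‖v‖ ^ 2 ≤ inner ℝ (HH W x ξ q v) v
  small : ∀ x ξ ξ', Nr W ε x ξ → Nr W ε x ξ' → ∀ q ∈ closedBall (0 : E2) r,
    ‖pp W x ξ ξ' q‖ ≤ 1
  /-- the crossing point -/
  hol : ∀ x ξ ξ', Nr W ε x ξ → Nr W ε x ξ' → ∀ q ∈ closedBall (0 : E2) r,
    ∃ q' ∈ ball q ρ, W.en x ξ' q' = W.en x ξ q
  uniq : ∀ x ξ ξ', Nr W ε x ξ → Nr W ε x ξ' → ∀ q ∈ closedBall (0 : E2) r,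
    ∀ q' ∈ closedBall q ρ, ∀ q'' ∈ closedBall q ρ, W.en x ξ' q' = W.en x ξ q →
    W.en x ξ' q'' = W.en x ξ q → q' = q''
  crit : ∀ x ξ ξ', Nr W ε x ξ → Nr W ε x ξ' → ∀ q ∈ closedBall (0 : E2) r,
    ∀ q' ∈ closedBall q ρ, W.en x ξ' q' = W.en x ξ q →
    gradient (W.be x ξ') q' + gradient (W.be x (W.en x ξ q)) q' = 0
  /-- the holonomy, first order -/
  hol1 : ∀ x ξ ξ', Nr W ε x ξ → Nr W ε x ξ' → ∀ q ∈ closedBall (0 : E2) r,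
    ∀ q' ∈ closedBall q ρ, W.en x ξ' q' = W.en x ξ q → ‖q' - q‖ ≤ M * ‖pp W x ξ ξ' q‖
  pp_le : ∀ x ξ ξ', Nr W ε x ξ → Nr W ε x ξ' → ∀ q ∈ closedBall (0 : E2) r,
    ∀ q' ∈ closedBall q ρ, W.en x ξ' q' = W.en x ξ q →
    ‖pp W x ξ ξ' q'‖ ≤ M * ‖pp W x ξ ξ' q‖
  /-- the holonomy, second order -/
  hol2' : ∀ x ξ ξ', Nr W ε x ξ → Nr W ε x ξ' → ∀ q ∈ closedBall (0 : E2) r,
    ∀ q' ∈ closedBall q ρ, W.en x ξ' q' = W.en x ξ q →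
    ‖HH W x ξ q (q' - q) + pp W x ξ ξ' q'‖ ≤ M * ‖pp W x ξ ξ' q‖ ^ 2
  hol2 : ∀ x ξ ξ', Nr W ε x ξ → Nr W ε x ξ' → ∀ q ∈ closedBall (0 : E2) r,
    ∀ q' ∈ closedBall q ρ, W.en x ξ' q' = W.en x ξ q →
    ‖HH W x ξ q (q' - q) + pp W x ξ ξ' q‖
      ≤ M * (‖pp W x ξ ξ' q‖ ^ 2 + kk W x ξ ξ' q * ‖pp W x ξ ξ' q‖)
  /-- the function `D` -/
  D1 : ∀ x ξ ξ', Nr W ε x ξ → Nr W ε x ξ' → ∀ q ∈ closedBall (0 : E2) r,
    ∀ z z', L.em z = ξ → L.ep z = W.en x ξ q → L.em z' = ξ' → L.ep z' = W.en x ξ q →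
    |(L.lv z' + L.lp z') - (L.lv z + L.lp z) - (W.b ξ' x - W.b ξ x)
      - (W.be x ξ' q - W.be x ξ q)| ≤ M * ‖pp W x ξ ξ' q‖ ^ 2
  D2 : ∀ x ξ ξ', Nr W ε x ξ → Nr W ε x ξ' → ∀ q ∈ closedBall (0 : E2) r,
    ∀ z z', L.em z = ξ → L.ep z = W.en x ξ q → L.em z' = ξ' → L.ep z' = W.en x ξ q →
    |(L.lv z' + L.lp z') - (L.lv z + L.lp z) - (W.b ξ' x - W.b ξ x)
      - (W.be x ξ' q - W.be x ξ q)
      + 1 / 2 * inner ℝ (Ring.inverse (HH W x ξ q) (pp W x ξ ξ' q)) (pp W x ξ ξ' q)|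
      ≤ M * (‖pp W x ξ ξ' q‖ ^ 3 + kk W x ξ ξ' q * ‖pp W x ξ ξ' q‖ ^ 2)

/-! ### the sum `b_ξ + b_η` on the disc -/

/-- the sum `b_ξ + b_η` on the disc -/
def GG (x : X) (ξ η : B) (s : E2) : ℝ := W.be x ξ s + W.be x η s

theorem GG_diff (x : X) (ξ η : B) {s : E2} (hs : s ∈ ball (0 : E2) 3) :
    DifferentiableAt ℝ (GG W x ξ η) s := (be_diff W x ξ hs).add (be_diff W x η hs)

theorem GG_grad (x : X) (ξ η : B) {s : E2} (hs : s ∈ ball (0 : E2) 3) :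
    gradient (GG W x ξ η) s = gradient (W.be x ξ) s + gradient (W.be x η) s :=
  grad_add (be_diff W x ξ hs) (be_diff W x η hs)

theorem GG_grad_ev (x : X) (ξ η : B) {s : E2} (hs : s ∈ ball (0 : E2) 3) :
    gradient (GG W x ξ η) =ᶠ[𝓝 s] fun s => gradient (W.be x ξ) s + gradient (W.be x η) s := by
  filter_upwards [isOpen_ball.mem_nhds hs] with t ht
  exact GG_grad W x ξ η ht

theorem GG_diff2 (x : X) (ξ η : B) {s : E2} (hs : s ∈ ball (0 : E2) 3) :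
    DifferentiableAt ℝ (gradient (GG W x ξ η)) s :=
  ((grad_diff W x ξ hs).add (grad_diff W x η hs)).congr_of_eventuallyEq (GG_grad_ev W x ξ η hs)

theorem GG_hess (x : X) (ξ η : B) {s : E2} (hs : s ∈ ball (0 : E2) 3) :
    fderiv ℝ (gradient (GG W x ξ η)) s = hess (W.be x ξ) s + hess (W.be x η) s := by
  rw [(GG_grad_ev W x ξ η hs).fderiv_eq, fderiv_fun_add (grad_diff W x ξ hs) (grad_diff W x η hs)]
  rfl

theorem GG_hess_ev (x : X) (ξ η : B) {s : E2} (hs : s ∈ ball (0 : E2) 3) :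
    fderiv ℝ (gradient (GG W x ξ η)) =ᶠ[𝓝 s] fun s => hess (W.be x ξ) s + hess (W.be x η) s := by
  filter_upwards [isOpen_ball.mem_nhds hs] with t ht
  exact GG_hess W x ξ η ht

theorem GG_diff3 (x : X) (ξ η : B) {s : E2} (hs : s ∈ ball (0 : E2) 3) :
    DifferentiableAt ℝ (fderiv ℝ (gradient (GG W x ξ η))) s :=
  ((hess_diff W x ξ hs).add (hess_diff W x η hs)).congr_of_eventuallyEq (GG_hess_ev W x ξ η hs)

theorem GG_bd3 {M₃ : ℝ} {x : X} {ξ η : B} {s : E2} (hs : s ∈ ball (0 : E2) 3)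
    (h1 : ‖fderiv ℝ (hess (W.be x ξ)) s‖ ≤ M₃) (h2 : ‖fderiv ℝ (hess (W.be x η)) s‖ ≤ M₃) :
    ‖fderiv ℝ (fderiv ℝ (gradient (GG W x ξ η))) s‖ ≤ 2 * M₃ := by
  rw [(GG_hess_ev W x ξ η hs).fderiv_eq, fderiv_fun_add (hess_diff W x ξ hs)
    (hess_diff W x η hs)]
  calc ‖fderiv ℝ (hess (W.be x ξ)) s + fderiv ℝ (hess (W.be x η)) s‖
      ≤ ‖fderiv ℝ (hess (W.be x ξ)) s‖ + ‖fderiv ℝ (hess (W.be x η)) s‖ :=
        norm_add_le (fderiv ℝ (hess (W.be x ξ)) s) (fderiv ℝ (hess (W.be x η)) s)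
    _ ≤ M₃ + M₃ := add_le_add h1 h2
    _ = 2 * M₃ := by ring

theorem GG_grad_en (x : X) (ξ : B) {s : E2} (hs : s ∈ ball (0 : E2) 3) :
    gradient (GG W x ξ (W.en x ξ s)) s = 0 := by
  rw [GG_grad W x ξ _ hs, crit_en W x ξ hs]

theorem GG_grad_pp (x : X) (ξ ξ' : B) {q : E2} (hq : q ∈ ball (0 : E2) 3) :
    gradient (GG W x ξ' (W.en x ξ q)) q = pp W x ξ ξ' q := by
  have h2 : gradient (W.be x ξ) q = - gradient (W.be x (W.en x ξ q)) q :=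
    eq_neg_iff_add_eq_zero.2 (crit_en W x ξ hq)
  rw [GG_grad W x ξ' _ hq, pp, h2, sub_neg_eq_add]

/-! ### the preliminary constants -/

/-- preliminary form -/
structure Pre (r ρ ε c M₂ M₃ : ℝ) : Prop where
  r_pos : 0 < r
  r_le : r ≤ 3 / 2
  ρ_pos : 0 < ρ
  ρ_le : ρ ≤ 1 / 2
  ε_pos : 0 < ε
  c_pos : 0 < c
  M₂_nn : 0 ≤ M₂
  M₃_nn : 0 ≤ M₃
  b2 : ∀ x ξ, ∀ q ∈ closedBall (0 : E2) (5 / 2), ‖hess (W.be x ξ) q‖ ≤ M₂
  b3 : ∀ x ξ, ∀ q ∈ closedBall (0 : E2) (5 / 2), ‖fderiv ℝ (hess (W.be x ξ)) q‖ ≤ M₃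
  nu1 : ∀ x ξ ξ', Nr W ε x ξ → Nr W ε x ξ' → ∀ q ∈ closedBall (0 : E2) r,
    ∀ s ∈ closedBall q ρ, 0 < W.nu x ξ' s
  nu2 : ∀ x ξ ξ', Nr W ε x ξ → Nr W ε x ξ' → ∀ q ∈ closedBall (0 : E2) r,
    ∀ s ∈ closedBall q ρ, W.nu x (W.en x ξ q) s < 0
  low : ∀ x ξ ξ', Nr W ε x ξ → Nr W ε x ξ' → ∀ q ∈ closedBall (0 : E2) r,
    ∀ s ∈ closedBall q ρ, ∀ v, c * ‖v‖ ^ 2
      ≤ inner ℝ ((hess (W.be x ξ') s + hess (W.be x (W.en x ξ q)) s) v) v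
  sm : ∀ x ξ ξ', Nr W ε x ξ → Nr W ε x ξ' → ∀ q ∈ closedBall (0 : E2) r,
    ‖pp W x ξ ξ' q‖ < min (c * ρ / 2) 1

/-- the domain of the continuity statements -/
def Dm : Set ((X × (B × B)) × (E2 × E2)) := {p | p.2.1 ∈ ball (0 : E2) 3 ∧ p.2.2 ∈ ball (0 : E2) 3}

theorem Dm_open : IsOpen (Dm : Set ((X × (B × B)) × (E2 × E2))) :=
  (isOpen_ball.preimage (continuous_fst.comp continuous_snd)).inter
    (isOpen_ball.preimage (continuous_snd.comp continuous_snd))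

theorem ce_cont : ContinuousOn (fun p : (X × (B × B)) × (E2 × E2) =>
    (((p.1.1, W.en p.1.1 p.1.2.1 p.2.1), p.2.2) : (X × B) × E2)) Dm := by
  have cq : ContinuousOn (fun p : (X × (B × B)) × (E2 × E2) =>
      (((p.1.1, p.1.2.1), p.2.1) : (X × B) × E2)) Dm := by fun_prop
  have h1 : ContinuousOn (fun p : (X × (B × B)) × (E2 × E2) =>
      W.en p.1.1 p.1.2.1 p.2.1) Dm := W.en_cont.comp cq fun p hp => ⟨mem_univ _, hp.1⟩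
  exact ((continuous_fst.comp continuous_fst).continuousOn.prodMk h1).prodMk
    (continuous_snd.comp continuous_snd).continuousOn

theorem f1_cont : ContinuousOn (fun p : (X × (B × B)) × (E2 × E2) =>
    W.nu p.1.1 p.1.2.2 p.2.2) Dm := by
  have cx : ContinuousOn (fun p : (X × (B × B)) × (E2 × E2) =>
      (((p.1.1, p.1.2.2), p.2.2) : (X × B) × E2)) Dm := by fun_prop
  exact W.nu_cont.comp cx fun p hp => ⟨mem_univ _, hp.2⟩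

theorem f2_cont : ContinuousOn (fun p : (X × (B × B)) × (E2 × E2) =>
    W.nu p.1.1 (W.en p.1.1 p.1.2.1 p.2.1) p.2.2) Dm :=
  W.nu_cont.comp (ce_cont W) fun p hp => ⟨mem_univ _, hp.2⟩

theorem g1_cont : ContinuousOn (fun p : (X × (B × B)) × (E2 × E2) =>
    hess (W.be p.1.1 p.1.2.2) p.2.2) Dm := by
  have cx : ContinuousOn (fun p : (X × (B × B)) × (E2 × E2) =>
      (((p.1.1, p.1.2.2), p.2.2) : (X × B) × E2)) Dm := by fun_prop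
  exact (hess_jc W).continuousOn.comp cx fun p hp => ⟨mem_univ _, hp.2⟩

theorem g2_cont : ContinuousOn (fun p : (X × (B × B)) × (E2 × E2) =>
    hess (W.be p.1.1 (W.en p.1.1 p.1.2.1 p.2.1)) p.2.2) Dm :=
  (hess_jc W).continuousOn.comp (ce_cont W) fun p hp => ⟨mem_univ _, hp.2⟩

theorem cm_cont : Continuous (fun p : (X × (B × B)) × (E2 × E2) =>
    (((p.1.1, L.em p.1.1), p.2.1) : (X × B) × E2)) :=
  (em3_cont (L := L)).comp (f := fun p : (X × (B × B)) × (E2 × E2) => ((p.1.1, p.2.1) : X × E2))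
    (by fun_prop)

theorem g3_cont : ContinuousOn (fun p : (X × (B × B)) × (E2 × E2) =>
    HH W p.1.1 (L.em p.1.1) p.2.1) Dm :=
  ContinuousOn.comp (g := fun p : (X × B) × E2 => HH W p.1.1 p.1.2 p.2)
    (f := fun p : (X × (B × B)) × (E2 × E2) => (((p.1.1, L.em p.1.1), p.2.1) : (X × B) × E2))
    (HH_cont W) (cm_cont (L := L)).continuousOn fun _ hp => ⟨mem_univ _, hp.1⟩

/-- the deviation of the Hessian -/
def dev (x : X) (ξ ξ' : B) (q s : E2) : E2 →L[ℝ] E2 :=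
  hess (W.be x ξ') s + hess (W.be x (W.en x ξ q)) s - HH W x (L.em x) q

theorem dev_cont : ContinuousOn (fun p : (X × (B × B)) × (E2 × E2) =>
    dev W p.1.1 p.1.2.1 p.1.2.2 p.2.1 p.2.2) Dm :=
  ((g1_cont W).add (g2_cont W)).sub (g3_cont W)

theorem f3_cont : ContinuousOn (fun p : (X × (B × B)) × (E2 × E2) =>
    ‖dev W p.1.1 p.1.2.1 p.1.2.2 p.2.1 p.2.2‖) Dm := (dev_cont W).norm

theorem f4_cont : ContinuousOn (fun p : (X × (B × B)) × (E2 × E2) =>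
    ‖pp W p.1.1 p.1.2.1 p.1.2.2 p.2.1‖) Dm := by
  have cq : ContinuousOn (fun p : (X × (B × B)) × (E2 × E2) =>
      (((p.1.1, p.1.2.1), p.2.1) : (X × B) × E2)) Dm := by fun_prop
  have cq' : ContinuousOn (fun p : (X × (B × B)) × (E2 × E2) =>
      (((p.1.1, p.1.2.2), p.2.1) : (X × B) × E2)) Dm := by fun_prop
  have g1 : ContinuousOn (fun p : (X × (B × B)) × (E2 × E2) =>
      gradient (W.be p.1.1 p.1.2.2) p.2.1) Dm :=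
    (grad_jc W).continuousOn.comp cq' fun p hp => ⟨mem_univ _, hp.1⟩
  have g2 : ContinuousOn (fun p : (X × (B × B)) × (E2 × E2) =>
      gradient (W.be p.1.1 p.1.2.1) p.2.1) Dm :=
    (grad_jc W).continuousOn.comp cq fun p hp => ⟨mem_univ _, hp.1⟩
  exact (g1.sub g2).norm

theorem exists_pre1 {r c : ℝ} (hr1 : r ≤ 3 / 2) (hc : 0 < c)
    (htr : ∀ x, ∀ q ∈ closedBall (0 : E2) r, 0 < W.nu x (L.em x) q) :
    ∃ ε > 0, ∀ x ξ ξ', Nr W ε x ξ → Nr W ε x ξ' → ∀ q ∈ closedBall (0 : E2) r,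
      ∀ s, ‖s - q‖ < ε → 0 < W.nu x ξ' s ∧ W.nu x (W.en x ξ q) s < 0 ∧
      ‖dev W x ξ ξ' q s‖ < c := by
  obtain ⟨ε₁, hε₁, hn1⟩ := near W (r := r)
    (((f1_cont W).isOpen_inter_preimage Dm_open (isOpen_Ioi (a := 0))).inter
    (((f2_cont W).isOpen_inter_preimage Dm_open (isOpen_Iio (a := 0))).inter
      ((f3_cont W).isOpen_inter_preimage Dm_open (isOpen_Iio (a := c))))) (by
    rintro g x ξ ξ' q s ⟨⟨⟨hq, hs⟩, h1⟩, ⟨⟨-, h2⟩, ⟨-, h3⟩⟩⟩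
    simp only [mem_preimage, mem_Ioi, mem_Iio] at hq hs h1 h2 h3
    rw [W.nu_smul g x ξ' s hs] at h1
    rw [W.en_smul g x ξ q hq, W.nu_smul g x _ s hs] at h2
    rw [dev, W.en_smul g x ξ q hq, L.em_smul, HH_smul W g x _ hq,
      hess_congr (be_smul_ev W g x _ hs), hess_congr (be_smul_ev W g x _ hs)] at h3
    exact ⟨⟨⟨hq, hs⟩, h1⟩, ⟨⟨⟨hq, hs⟩, h2⟩, ⟨⟨hq, hs⟩, h3⟩⟩⟩) (by
    intro x q hq
    have hq3 : q ∈ ball (0 : E2) 3 := mem_ball_of_cb (by linarith) hq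
    refine ⟨⟨⟨hq3, hq3⟩, htr x q hq⟩, ⟨⟨⟨hq3, hq3⟩, ?_⟩, ⟨⟨hq3, hq3⟩, ?_⟩⟩⟩
    · simp only [mem_preimage, mem_Iio]
      rw [W.nu_en x (L.em x) q hq3]
      linarith [htr x q hq]
    · simp only [mem_preimage, mem_Iio]
      rw [dev, HH, sub_self, norm_zero]
      exact hc)
  refine ⟨ε₁, hε₁, fun x ξ ξ' h1 h2 q hq s hs => ?_⟩
  obtain ⟨a, b, d⟩ := hn1 x ξ ξ' h1 h2 q hq s hs
  exact ⟨a.2, b.2, d.2⟩

theorem exists_pre2 {r t : ℝ} (hr1 : r ≤ 3 / 2) (ht : 0 < t) :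
    ∃ ε > 0, ∀ x ξ ξ', Nr W ε x ξ → Nr W ε x ξ' → ∀ q ∈ closedBall (0 : E2) r,
      ‖pp W x ξ ξ' q‖ < t := by
  obtain ⟨ε₂, hε₂, hn2⟩ := near W (r := r)
    ((f4_cont W).isOpen_inter_preimage Dm_open (isOpen_Iio (a := t))) (by
    rintro g x ξ ξ' q s ⟨⟨hq, hs⟩, h1⟩
    simp only [mem_preimage, mem_Iio] at hq hs h1
    rw [pp_smul W g x ξ ξ' hq] at h1
    exact ⟨⟨hq, hs⟩, h1⟩) (by
    intro x q hq
    have hq3 : q ∈ ball (0 : E2) 3 := mem_ball_of_cb (by linarith) hq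
    refine ⟨⟨hq3, hq3⟩, ?_⟩
    simp only [mem_preimage, mem_Iio]
    rw [pp_self, norm_zero]
    exact ht)
  refine ⟨ε₂, hε₂, fun x ξ ξ' h1 h2 q hq => ?_⟩
  exact (hn2 x ξ ξ' h1 h2 q hq q (by simpa using hε₂)).2

theorem exists_pre {r : ℝ} (hr : 0 < r) (hr1 : r ≤ 3 / 2)
    (htr : ∀ x, ∀ q ∈ closedBall (0 : E2) r, 0 < W.nu x (L.em x) q) :
    ∃ ρ ε c M₂ M₃, Pre W r ρ ε c M₂ M₃ := by
  obtain ⟨c₀, hc₀, hpos₀⟩ := exists_HH_pos W (by linarith : r < 3) htr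
  obtain ⟨M₂, hM₂, hb2⟩ := hess_bound W
  obtain ⟨M₃, hM₃, hb3⟩ := dhess_bound W
  obtain ⟨c, hc, hc2⟩ : ∃ c : ℝ, 0 < c ∧ c₀ = c + c := ⟨c₀ / 2, by positivity, by ring⟩
  obtain ⟨ε₁, hε₁, hn1⟩ := exists_pre1 W hr1 hc htr
  obtain ⟨ρ, hρ, hρ1, hρε⟩ : ∃ ρ : ℝ, 0 < ρ ∧ ρ ≤ 1 / 2 ∧ ρ < ε₁ :=
    ⟨min (ε₁ / 2) (1 / 2), by positivity, min_le_right _ _,
      by have := min_le_left (ε₁ / 2) (1 / 2 : ℝ); linarith⟩
  obtain ⟨ε₂, hε₂, hn2⟩ := exists_pre2 W hr1 (by positivity : 0 < min (c * ρ / 2) 1)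
  have key : ∀ x ξ ξ', Nr W (min ε₁ ε₂) x ξ → Nr W (min ε₁ ε₂) x ξ' →
      ∀ q ∈ closedBall (0 : E2) r, ∀ s ∈ closedBall q ρ, 0 < W.nu x ξ' s ∧
      W.nu x (W.en x ξ q) s < 0 ∧ ‖dev W x ξ ξ' q s‖ < c := by
    intro x ξ ξ' h1 h2 q hq s hs
    refine hn1 x ξ ξ' (h1.mono W (min_le_left _ _)) (h2.mono W (min_le_left _ _)) q hq s ?_
    rw [mem_closedBall, dist_eq_norm] at hs
    exact hs.trans_lt hρε
  refine ⟨ρ, min ε₁ ε₂, c, M₂, M₃, hr, hr1, hρ, hρ1, lt_min hε₁ hε₂, hc, hM₂, hM₃, hb2, hb3,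
    fun x ξ ξ' h1 h2 q hq s hs => (key x ξ ξ' h1 h2 q hq s hs).1,
    fun x ξ ξ' h1 h2 q hq s hs => (key x ξ ξ' h1 h2 q hq s hs).2.1, ?_,
    fun x ξ ξ' h1 h2 q hq => hn2 x ξ ξ' (h1.mono W (min_le_right _ _))
      (h2.mono W (min_le_right _ _)) q hq⟩
  intro x ξ ξ' h1 h2 q hq s hs v
  have h3 := (key x ξ ξ' h1 h2 q hq s hs).2.2
  rw [dev] at h3
  generalize hess (W.be x ξ') s + hess (W.be x (W.en x ξ q)) s = A at h3 ⊢
  have h4 := hpos₀ x q hq v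
  generalize HH W x (L.em x) q = H at h3 h4
  have h5 : inner ℝ (A v) v = inner ℝ (H v) v + inner ℝ ((A - H) v) v := by
    rw [← inner_add_left]
    congr 1
    simp
  have h6 : |inner ℝ ((A - H) v) v| ≤ c * ‖v‖ ^ 2 := by
    calc |inner ℝ ((A - H) v) v|
        ≤ ‖(A - H) v‖ * ‖v‖ := abs_real_inner_le_norm _ _
      _ ≤ (‖A - H‖ * ‖v‖) * ‖v‖ := by
          gcongr
          exact ContinuousLinearMap.le_opNorm _ _
      _ ≤ (c * ‖v‖) * ‖v‖ := by gcongr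
      _ = c * ‖v‖ ^ 2 := by ring
  have h7 := neg_le_of_abs_le h6
  rw [hc2] at h4
  rw [h5]
  linarith

/-! ### consequences -/

namespace Pre

variable {W} {r ρ ε c M₂ M₃ : ℝ} (P : Pre W r ρ ε c M₂ M₃)

include P

theorem cb {q : E2} (hq : q ∈ closedBall (0 : E2) r) :
    closedBall q ρ ⊆ closedBall (0 : E2) (5 / 2) := by
  intro s hs
  have h1 := P.r_le
  have h2 := P.ρ_le
  rw [mem_closedBall_zero_iff] at hq ⊢
  rw [mem_closedBall, dist_eq_norm] at hs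
  calc ‖s‖ = ‖q + (s - q)‖ := by congr 1; abel
    _ ≤ ‖q‖ + ‖s - q‖ := norm_add_le _ _
    _ ≤ 5 / 2 := by linarith

theorem b3' {q : E2} (hq : q ∈ closedBall (0 : E2) r) : closedBall q ρ ⊆ ball (0 : E2) 3 :=
  fun _ hs => closedBall_subset_ball (by norm_num) (P.cb hq hs)

theorem qq (q : E2) : q ∈ closedBall q ρ := mem_closedBall_self P.ρ_pos.le

theorem q3 {q : E2} (hq : q ∈ closedBall (0 : E2) r) : q ∈ ball (0 : E2) 3 :=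
  P.b3' hq (P.qq q)

theorem sc {x : X} {ξ ξ' : B} (h1 : Nr W ε x ξ) (h2 : Nr W ε x ξ') {q : E2}
    (hq : q ∈ closedBall (0 : E2) r) : SC (GG W x ξ' (W.en x ξ q)) (closedBall q ρ) c := by
  refine ⟨convex_closedBall _ _, fun s hs => GG_diff W x ξ' _ (P.b3' hq hs),
    fun s hs => GG_diff2 W x ξ' _ (P.b3' hq hs), fun s hs v => ?_⟩
  rw [GG_hess W x ξ' _ (P.b3' hq hs)]
  exact P.low x ξ ξ' h1 h2 q hq s hs v

theorem hpos {x : X} {ξ : B} (h1 : Nr W ε x ξ) {q : E2} (hq : q ∈ closedBall (0 : E2) r) (v : E2) :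
    c * ‖v‖ ^ 2 ≤ inner ℝ (HH W x ξ q v) v := P.low x ξ ξ h1 h1 q hq q (P.qq q) v

theorem crit {x : X} {ξ ξ' : B} {q : E2} (hq : q ∈ closedBall (0 : E2) r) {q' : E2}
    (hq' : q' ∈ closedBall q ρ) (he : W.en x ξ' q' = W.en x ξ q) :
    gradient (GG W x ξ' (W.en x ξ q)) q' = 0 := by
  rw [← he]; exact GG_grad_en W x ξ' (P.b3' hq hq')

theorem dist {x : X} {ξ ξ' : B} (h1 : Nr W ε x ξ) (h2 : Nr W ε x ξ') {q : E2}
    (hq : q ∈ closedBall (0 : E2) r) {q' : E2} (hq' : q' ∈ closedBall q ρ)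
    (he : W.en x ξ' q' = W.en x ξ q) : ‖q' - q‖ ≤ 1 / c * ‖pp W x ξ ξ' q‖ := by
  have hc := P.c_pos
  have h3 := (P.sc h1 h2 hq).mono (P.qq q) hq'
  rw [P.crit hq hq' he, GG_grad_pp W x ξ ξ' (P.q3 hq), zero_sub, inner_neg_left] at h3
  have h5 := neg_le_of_abs_le (abs_real_inner_le_norm (pp W x ξ ξ' q) (q' - q))
  have h6 : c * ‖q' - q‖ ^ 2 ≤ ‖pp W x ξ ξ' q‖ * ‖q' - q‖ := by linarith
  rcases eq_or_lt_of_le (norm_nonneg (q' - q)) with h0 | h0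
  · rw [← h0]; positivity
  · have h7 : (c * ‖q' - q‖) * ‖q' - q‖ ≤ ‖pp W x ξ ξ' q‖ * ‖q' - q‖ := by
      calc (c * ‖q' - q‖) * ‖q' - q‖ = c * ‖q' - q‖ ^ 2 := by ring
        _ ≤ _ := h6
    have h8 := le_of_mul_le_mul_right h7 h0
    calc ‖q' - q‖ = 1 / c * (c * ‖q' - q‖) := by field_simp
      _ ≤ 1 / c * ‖pp W x ξ ξ' q‖ := by gcongr

theorem gd {x : X} {ζ : B} {q : E2} (hq : q ∈ closedBall (0 : E2) r) {q' : E2}
    (hq' : q' ∈ closedBall q ρ) :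
    ‖gradient (W.be x ζ) q' - gradient (W.be x ζ) q‖ ≤ M₂ * ‖q' - q‖ :=
  (convex_closedBall q ρ).norm_image_sub_le_of_norm_fderiv_le (𝕜 := ℝ)
    (f := gradient (W.be x ζ)) (C := M₂)
    (fun _ hs => grad_diff W x ζ (P.b3' hq hs)) (fun s hs => P.b2 x ζ s (P.cb hq hs))
    (P.qq q) hq'

theorem gd2 {x : X} {ζ : B} {q : E2} (hq : q ∈ closedBall (0 : E2) r) {q' : E2}
    (hq' : q' ∈ closedBall q ρ) :
    ‖gradient (W.be x ζ) q' - gradient (W.be x ζ) q - hess (W.be x ζ) q (q' - q)‖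
      ≤ M₃ * ‖q' - q‖ ^ 2 :=
  second (K := gradient (W.be x ζ)) (convex_closedBall q ρ) (M := M₃)
    (fun _ hs => grad_diff W x ζ (P.b3' hq hs)) (fun _ hs => hess_diff W x ζ (P.b3' hq hs))
    (fun s hs => P.b3 x ζ s (P.cb hq hs)) (P.qq q) hq'

theorem pd {x : X} {ξ ξ' : B} {q : E2} (hq : q ∈ closedBall (0 : E2) r) {q' : E2}
    (hq' : q' ∈ closedBall q ρ) :
    ‖pp W x ξ ξ' q' - pp W x ξ ξ' q‖ ≤ 2 * M₂ * ‖q' - q‖ := by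
  calc ‖pp W x ξ ξ' q' - pp W x ξ ξ' q‖
      = ‖(gradient (W.be x ξ') q' - gradient (W.be x ξ') q)
        - (gradient (W.be x ξ) q' - gradient (W.be x ξ) q)‖ := by
        unfold pp; congr 1; abel
    _ ≤ M₂ * ‖q' - q‖ + M₂ * ‖q' - q‖ :=
        (norm_sub_le _ _).trans (add_le_add (P.gd hq hq') (P.gd hq hq'))
    _ = _ := by ring

theorem pd2 {x : X} {ξ ξ' : B} {q : E2} (hq : q ∈ closedBall (0 : E2) r) {q' : E2}
    (hq' : q' ∈ closedBall q ρ) :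
    ‖pp W x ξ ξ' q' - pp W x ξ ξ' q‖ ≤ kk W x ξ ξ' q * ‖q' - q‖ + 2 * M₃ * ‖q' - q‖ ^ 2 := by
  have e : pp W x ξ ξ' q' - pp W x ξ ξ' q = (hess (W.be x ξ') q - hess (W.be x ξ) q) (q' - q)
      + ((gradient (W.be x ξ') q' - gradient (W.be x ξ') q - hess (W.be x ξ') q (q' - q))
        - (gradient (W.be x ξ) q' - gradient (W.be x ξ) q - hess (W.be x ξ) q (q' - q))) := by
    rw [sub_apply, pp, pp]; abel
  have h1 := P.gd2 (x := x) (ζ := ξ') hq hq'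
  have h2 := P.gd2 (x := x) (ζ := ξ) hq hq'
  have h3 : ‖(hess (W.be x ξ') q - hess (W.be x ξ) q) (q' - q)‖ ≤ kk W x ξ ξ' q * ‖q' - q‖ :=
    ContinuousLinearMap.le_opNorm _ _
  rw [e]
  refine (norm_add_le _ _).trans ?_
  have h4 := norm_sub_le
    (gradient (W.be x ξ') q' - gradient (W.be x ξ') q - hess (W.be x ξ') q (q' - q))
    (gradient (W.be x ξ) q' - gradient (W.be x ξ) q - hess (W.be x ξ) q (q' - q))
  linarith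

theorem h2' {x : X} {ξ ξ' : B} (h1 : Nr W ε x ξ) (h2 : Nr W ε x ξ') {q : E2}
    (hq : q ∈ closedBall (0 : E2) r) {q' : E2} (hq' : q' ∈ closedBall q ρ)
    (he : W.en x ξ' q' = W.en x ξ q) :
    ‖HH W x ξ q (q' - q) + pp W x ξ ξ' q'‖ ≤ 2 * M₃ * (1 / c) ^ 2 * ‖pp W x ξ ξ' q‖ ^ 2 := by
  have h4 := P.dist h1 h2 hq hq' he
  have hq3' := P.b3' hq hq'
  have h6 := P.crit hq hq' he
  have hM₃ := P.M₃_nn
  have h5 := second (K := gradient (GG W x ξ (W.en x ξ q))) (convex_closedBall q ρ) (M := 2 * M₃)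
    (fun s hs => GG_diff2 W x ξ _ (P.b3' hq hs))
    (fun s hs => GG_diff3 W x ξ _ (P.b3' hq hs))
    (fun s hs => GG_bd3 W (P.b3' hq hs) (P.b3 x _ s (P.cb hq hs)) (P.b3 x _ s (P.cb hq hs)))
    (P.qq q) hq'
  have e1 : gradient (GG W x ξ (W.en x ξ q)) q = 0 := GG_grad_en W x ξ (P.q3 hq)
  have e2 : gradient (GG W x ξ (W.en x ξ q)) q' = - pp W x ξ ξ' q' := by
    rw [GG_grad W x ξ' _ hq3'] at h6
    rw [GG_grad W x ξ _ hq3', pp, eq_neg_iff_add_eq_zero.2 h6]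
    abel
  have e3 : fderiv ℝ (gradient (GG W x ξ (W.en x ξ q))) q = HH W x ξ q := by
    rw [GG_hess W x ξ _ (P.q3 hq)]; rfl
  rw [e1, e2, e3, sub_zero] at h5
  have h7 : ‖HH W x ξ q (q' - q) + pp W x ξ ξ' q'‖
      = ‖-pp W x ξ ξ' q' - HH W x ξ q (q' - q)‖ := by
    rw [← norm_neg]; congr 1; abel
  rw [h7]
  calc ‖-pp W x ξ ξ' q' - HH W x ξ q (q' - q)‖ ≤ 2 * M₃ * ‖q' - q‖ ^ 2 := h5
    _ ≤ 2 * M₃ * (1 / c * ‖pp W x ξ ξ' q‖) ^ 2 := by gcongr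
    _ = _ := by ring

theorem h2q {x : X} {ξ ξ' : B} (h1 : Nr W ε x ξ) (h2 : Nr W ε x ξ') {q : E2}
    (hq : q ∈ closedBall (0 : E2) r) {q' : E2} (hq' : q' ∈ closedBall q ρ)
    (he : W.en x ξ' q' = W.en x ξ q) :
    ‖HH W x ξ q (q' - q) + pp W x ξ ξ' q‖ ≤ (1 / c + 4 * M₃ * (1 / c) ^ 2)
      * (‖pp W x ξ ξ' q‖ ^ 2 + kk W x ξ ξ' q * ‖pp W x ξ ξ' q‖) := by
  have h4 := P.dist h1 h2 hq hq' he
  have h5 := P.h2' h1 h2 hq hq' he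
  have h6 := P.pd2 (x := x) (ξ := ξ) (ξ' := ξ') hq hq'
  have hk : 0 ≤ kk W x ξ ξ' q := norm_nonneg _
  have hM₃ := P.M₃_nn
  have hc := P.c_pos
  have ht0 : 0 ≤ ‖pp W x ξ ξ' q‖ := norm_nonneg _
  have e : HH W x ξ q (q' - q) + pp W x ξ ξ' q
      = (HH W x ξ q (q' - q) + pp W x ξ ξ' q') - (pp W x ξ ξ' q' - pp W x ξ ξ' q) := by abel
  have h7 := norm_sub_le (HH W x ξ q (q' - q) + pp W x ξ ξ' q') (pp W x ξ ξ' q' - pp W x ξ ξ' q)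
  rw [← e] at h7
  generalize ‖pp W x ξ ξ' q‖ = t at *
  generalize kk W x ξ ξ' q = k at *
  have a0 : 0 ≤ 1 / c := by positivity
  calc ‖HH W x ξ q (q' - q) + pp W x ξ ξ' q‖
      ≤ 2 * M₃ * (1 / c) ^ 2 * t ^ 2 + (k * ‖q' - q‖ + 2 * M₃ * ‖q' - q‖ ^ 2) := by linarith
    _ ≤ 2 * M₃ * (1 / c) ^ 2 * t ^ 2 + (k * (1 / c * t) + 2 * M₃ * (1 / c * t) ^ 2) := by gcongr
    _ = 4 * M₃ * (1 / c) ^ 2 * t ^ 2 + 1 / c * (k * t) := by ring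
    _ ≤ (1 / c + 4 * M₃ * (1 / c) ^ 2) * t ^ 2 + (1 / c + 4 * M₃ * (1 / c) ^ 2) * (k * t) := by
        have a1 : 4 * M₃ * (1 / c) ^ 2 ≤ 1 / c + 4 * M₃ * (1 / c) ^ 2 := by linarith
        have a2 : 1 / c ≤ 1 / c + 4 * M₃ * (1 / c) ^ 2 := by
          have : 0 ≤ 4 * M₃ * (1 / c) ^ 2 := by positivity
          linarith
        gcongr
    _ = _ := by ring

theorem ex {x : X} {ξ ξ' : B} (h1 : Nr W ε x ξ) (h2 : Nr W ε x ξ') {q : E2}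
    (hq : q ∈ closedBall (0 : E2) r) : ∃ q' ∈ ball q ρ, W.en x ξ' q' = W.en x ξ q := by
  have h3 := (P.sm x ξ ξ' h1 h2 q hq).trans_le (min_le_left _ _)
  obtain ⟨q', hq', hcr, -⟩ := exists_crit P.ρ_pos P.c_pos (P.sc h1 h2 hq) (by
    rw [GG_grad_pp W x ξ ξ' (P.q3 hq)]
    exact h3)
  have hq'c : q' ∈ closedBall q ρ := ball_subset_closedBall hq'
  refine ⟨q', hq', en_of_crit W x ξ' _ (P.b3' hq hq'c) (P.nu1 x ξ ξ' h1 h2 q hq q' hq'c).le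
    (P.nu2 x ξ ξ' h1 h2 q hq q' hq'c).le ?_⟩
  rw [← GG_grad W x ξ' _ (P.b3' hq hq'c)]
  exact hcr

theorem val {x : X} {ξ ξ' : B} {q : E2}
    (hq : q ∈ closedBall (0 : E2) r) {q' : E2} (hq' : q' ∈ closedBall q ρ)
    (he : W.en x ξ' q' = W.en x ξ q) {z z' : X} (z1 : L.em z = ξ) (z2 : L.ep z = W.en x ξ q)
    (w1 : L.em z' = ξ') (w2 : L.ep z' = W.en x ξ q) :
    (L.lv z' + L.lp z') - (L.lv z + L.lp z) - (W.b ξ' x - W.b ξ x)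
      - (W.be x ξ' q - W.be x ξ q)
      = -(GG W x ξ' (W.en x ξ q) q - GG W x ξ' (W.en x ξ q) q') := by
  have d1 := D_at W x ξ (P.q3 hq) z1 z2
  have d2 := D_at W x ξ' (P.b3' hq hq') w1 (w2.trans he.symm)
  rw [he] at d2
  rw [d1, d2, GG, GG]; ring

theorem v1 {x : X} {ξ ξ' : B} (h1 : Nr W ε x ξ) (h2 : Nr W ε x ξ') {q : E2}
    (hq : q ∈ closedBall (0 : E2) r) {q' : E2} (hq' : q' ∈ closedBall q ρ)
    (he : W.en x ξ' q' = W.en x ξ q) :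
    |GG W x ξ' (W.en x ξ q) q - GG W x ξ' (W.en x ξ q) q'|
      ≤ 2 * M₂ * (1 / c) ^ 2 * ‖pp W x ξ ξ' q‖ ^ 2 := by
  have h4 := P.dist h1 h2 hq hq' he
  have hM₂ := P.M₂_nn
  have h7 := upper (G := GG W x ξ' (W.en x ξ q)) (convex_closedBall q ρ) (M := 2 * M₂)
    (fun s hs => GG_diff W x ξ' _ (P.b3' hq hs)) (fun s hs => GG_diff2 W x ξ' _ (P.b3' hq hs))
    (fun s hs => by
      rw [GG_hess W x ξ' _ (P.b3' hq hs)]
      calc ‖hess (W.be x ξ') s + hess (W.be x (W.en x ξ q)) s‖ ≤ M₂ + M₂ :=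
            (norm_add_le _ _).trans (add_le_add (P.b2 x _ s (P.cb hq hs))
              (P.b2 x _ s (P.cb hq hs)))
        _ = 2 * M₂ := by ring) hq' (P.qq q) (P.crit hq hq' he)
  calc |GG W x ξ' (W.en x ξ q) q - GG W x ξ' (W.en x ξ q) q'| ≤ 2 * M₂ * ‖q - q'‖ ^ 2 := h7
    _ ≤ 2 * M₂ * (1 / c * ‖pp W x ξ ξ' q‖) ^ 2 := by rw [norm_sub_rev]; gcongr
    _ = _ := by ring

theorem v2 {x : X} {ξ ξ' : B} (h1 : Nr W ε x ξ) (h2 : Nr W ε x ξ') {q : E2}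
    (hq : q ∈ closedBall (0 : E2) r) {q' : E2} (hq' : q' ∈ closedBall q ρ)
    (he : W.en x ξ' q' = W.en x ξ q) :
    |-(GG W x ξ' (W.en x ξ q) q - GG W x ξ' (W.en x ξ q) q')
      + 1 / 2 * inner ℝ (Ring.inverse (HH W x ξ q) (pp W x ξ ξ' q)) (pp W x ξ ξ' q)|
      ≤ (2 * M₃ * (1 / c) ^ 3 + (1 / c + 4 * M₃ * (1 / c) ^ 2) / c)
        * (‖pp W x ξ ξ' q‖ ^ 3 + kk W x ξ ξ' q * ‖pp W x ξ ξ' q‖ ^ 2) := by
  have h4 := P.dist h1 h2 hq hq' he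
  have h5 := P.h2q h1 h2 hq hq' he
  have hM₃ := P.M₃_nn
  have hc := P.c_pos
  have hk : 0 ≤ kk W x ξ ξ' q := norm_nonneg _
  have h7 := trap (G := GG W x ξ' (W.en x ξ q)) (convex_closedBall q ρ) (M := 2 * M₃)
    (fun s hs => GG_diff W x ξ' _ (P.b3' hq hs)) (fun s hs => GG_diff2 W x ξ' _ (P.b3' hq hs))
    (fun s hs => GG_diff3 W x ξ' _ (P.b3' hq hs))
    (fun s hs => GG_bd3 W (P.b3' hq hs) (P.b3 x _ s (P.cb hq hs)) (P.b3 x _ s (P.cb hq hs)))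
    hq' (P.qq q) (P.crit hq hq' he)
  rw [GG_grad_pp W x ξ ξ' (P.q3 hq)] at h7
  obtain ⟨i1, -, i3⟩ := inv_of_pos hc (P.hpos h1 hq)
  generalize HH W x ξ q = H at *
  generalize pp W x ξ ξ' q = p at *
  generalize kk W x ξ ξ' q = k at *
  generalize GG W x ξ' (W.en x ξ q) q = G₁ at *
  generalize GG W x ξ' (W.en x ξ q) q' = G₂ at *
  have hM₄ : 0 ≤ 1 / c + 4 * M₃ * (1 / c) ^ 2 := by positivity
  generalize 1 / c + 4 * M₃ * (1 / c) ^ 2 = M₄ at *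
  obtain ⟨R, hR⟩ : ∃ R, R = H (q' - q) + p := ⟨_, rfl⟩
  rw [← hR] at h5
  have e1 : Ring.inverse H p = (q - q') + Ring.inverse H R := by
    have : p = H (q - q') + R := by
      rw [hR, ← add_assoc, ← map_add]
      have : q - q' + (q' - q) = 0 := by abel
      rw [this, map_zero, zero_add]
    conv_lhs => rw [this]
    rw [map_add, i1]
  have e2 : |inner ℝ (Ring.inverse H R) p| ≤ M₄ / c * (‖p‖ ^ 3 + k * ‖p‖ ^ 2) := by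
    calc |inner ℝ (Ring.inverse H R) p| ≤ ‖Ring.inverse H R‖ * ‖p‖ := abs_real_inner_le_norm _ _
      _ ≤ (‖R‖ / c) * ‖p‖ := by gcongr; exact i3 R
      _ ≤ (M₄ * (‖p‖ ^ 2 + k * ‖p‖) / c) * ‖p‖ := by gcongr
      _ = _ := by ring
  have e3 : -(G₁ - G₂) + 1 / 2 * inner ℝ (Ring.inverse H p) p
      = -(G₁ - G₂ - 1 / 2 * inner ℝ p (q - q')) + 1 / 2 * inner ℝ (Ring.inverse H R) p := by
    rw [e1, inner_add_left, real_inner_comm p (q - q')]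
    ring
  have h8 : |G₁ - G₂ - 1 / 2 * inner ℝ p (q - q')| ≤ 2 * M₃ * (1 / c * ‖p‖) ^ 3 := by
    refine h7.trans ?_
    rw [norm_sub_rev]
    gcongr
  have h9 : |-(G₁ - G₂ - 1 / 2 * inner ℝ p (q - q')) + 1 / 2 * inner ℝ (Ring.inverse H R) p|
      ≤ |G₁ - G₂ - 1 / 2 * inner ℝ p (q - q')| + 1 / 2 * |inner ℝ (Ring.inverse H R) p| := by
    refine (abs_add_le _ _).trans ?_
    rw [abs_neg, abs_mul, abs_of_pos (by norm_num : (0 : ℝ) < 1 / 2)]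
  rw [e3]
  have h10 : 0 ≤ |inner ℝ (Ring.inverse H R) p| := abs_nonneg _
  have h11 : 0 ≤ k * ‖p‖ ^ 2 := by positivity
  have h12 : 2 * M₃ * (1 / c * ‖p‖) ^ 3
      ≤ 2 * M₃ * (1 / c) ^ 3 * (‖p‖ ^ 3 + k * ‖p‖ ^ 2) := by
    have a : 0 ≤ 2 * M₃ * (1 / c) ^ 3 := by positivity
    calc 2 * M₃ * (1 / c * ‖p‖) ^ 3 = 2 * M₃ * (1 / c) ^ 3 * ‖p‖ ^ 3 := by ring
      _ ≤ _ := by gcongr; linarith
  calc _ ≤ _ := h9
    _ ≤ 2 * M₃ * (1 / c) ^ 3 * (‖p‖ ^ 3 + k * ‖p‖ ^ 2)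
        + M₄ / c * (‖p‖ ^ 3 + k * ‖p‖ ^ 2) := by linarith
    _ = _ := by ring

end Pre

/-! ### the theorem -/

/-- the theorem for a given radius -/
theorem exists_DH_of {r : ℝ} (hr : 0 < r) (hr1 : r ≤ 3 / 2)
    (htr : ∀ x, ∀ q ∈ closedBall (0 : E2) r, 0 < W.nu x (L.em x) q) :
    ∃ ρ ε c M, DH W r ρ ε c M := by
  obtain ⟨ρ, ε, c, M₂, M₃, P⟩ := exists_pre W hr hr1 htr
  have hc := P.c_pos
  have hM₂ := P.M₂_nn
  have hM₃ := P.M₃_nn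
  obtain ⟨M, m1, m2, m3, m4, m5, m6⟩ : ∃ M : ℝ, 1 / c ≤ M ∧ 1 + 2 * M₂ / c ≤ M ∧
      2 * M₃ * (1 / c) ^ 2 ≤ M ∧ 1 / c + 4 * M₃ * (1 / c) ^ 2 ≤ M ∧ 2 * M₂ * (1 / c) ^ 2 ≤ M ∧
      2 * M₃ * (1 / c) ^ 3 + (1 / c + 4 * M₃ * (1 / c) ^ 2) / c ≤ M := by
    refine ⟨1 / c + (1 + 2 * M₂ / c) + 2 * M₃ * (1 / c) ^ 2 + (1 / c + 4 * M₃ * (1 / c) ^ 2)
      + 2 * M₂ * (1 / c) ^ 2
      + (2 * M₃ * (1 / c) ^ 3 + (1 / c + 4 * M₃ * (1 / c) ^ 2) / c), ?_⟩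
    have p1 : 0 ≤ 1 / c := by positivity
    have p2 : 0 ≤ 1 + 2 * M₂ / c := by positivity
    have p3 : 0 ≤ 2 * M₃ * (1 / c) ^ 2 := by positivity
    have p4 : 0 ≤ 1 / c + 4 * M₃ * (1 / c) ^ 2 := by positivity
    have p5 : 0 ≤ 2 * M₂ * (1 / c) ^ 2 := by positivity
    have p6 : 0 ≤ 2 * M₃ * (1 / c) ^ 3 + (1 / c + 4 * M₃ * (1 / c) ^ 2) / c := by positivity
    refine ⟨?_, ?_, ?_, ?_, ?_, ?_⟩ <;> linarith
  refine ⟨ρ, ε, c, M, ?_⟩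
  exact
  { r_pos := P.r_pos
    r_le := P.r_le
    ρ_pos := P.ρ_pos
    ρ_le := P.ρ_le
    ε_pos := P.ε_pos
    c_pos := P.c_pos
    M_nn := le_trans (by positivity) m1
    tr := fun x ξ h1 q hq s hs => P.nu1 x ξ ξ h1 h1 q hq s hs
    tr' := fun x ξ h1 q hq s hs => P.nu2 x ξ ξ h1 h1 q hq s hs
    pos := fun x ξ h1 q hq v => P.hpos h1 hq v
    small := fun x ξ ξ' h1 h2 q hq => ((P.sm x ξ ξ' h1 h2 q hq).trans_le (min_le_right _ _)).le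
    hol := fun x ξ ξ' h1 h2 q hq => P.ex h1 h2 hq
    uniq := fun x ξ ξ' h1 h2 q hq q' hq' q'' hq'' e' e'' =>
      (P.sc h1 h2 hq).unique hc hq' hq'' (P.crit hq hq' e') (P.crit hq hq'' e'')
    crit := fun x ξ ξ' h1 h2 q hq q' hq' he => by
      rw [← GG_grad W x ξ' _ (P.b3' hq hq')]
      exact P.crit hq hq' he
    hol1 := fun x ξ ξ' h1 h2 q hq q' hq' he => (P.dist h1 h2 hq hq' he).trans (by gcongr)
    pp_le := fun x ξ ξ' h1 h2 q hq q' hq' he => by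
      have h3 := P.pd (x := x) (ξ := ξ) (ξ' := ξ') hq hq'
      have h4 := P.dist h1 h2 hq hq' he
      calc ‖pp W x ξ ξ' q'‖ = ‖pp W x ξ ξ' q + (pp W x ξ ξ' q' - pp W x ξ ξ' q)‖ := by
            congr 1; abel
        _ ≤ ‖pp W x ξ ξ' q‖ + 2 * M₂ * ‖q' - q‖ := (norm_add_le _ _).trans (by gcongr)
        _ ≤ ‖pp W x ξ ξ' q‖ + 2 * M₂ * (1 / c * ‖pp W x ξ ξ' q‖) := by gcongr
        _ = (1 + 2 * M₂ / c) * ‖pp W x ξ ξ' q‖ := by ring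
        _ ≤ M * ‖pp W x ξ ξ' q‖ := by gcongr
    hol2' := fun x ξ ξ' h1 h2 q hq q' hq' he => (P.h2' h1 h2 hq hq' he).trans (by gcongr)
    hol2 := fun x ξ ξ' h1 h2 q hq q' hq' he => by
      have hk : 0 ≤ kk W x ξ ξ' q := norm_nonneg _
      exact (P.h2q h1 h2 hq hq' he).trans (by gcongr)
    D1 := fun x ξ ξ' h1 h2 q hq z z' z1 z2 w1 w2 => by
      obtain ⟨q', hq', he⟩ := P.ex h1 h2 hq
      have hq'c : q' ∈ closedBall q ρ := ball_subset_closedBall hq'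
      rw [P.val hq hq'c he z1 z2 w1 w2, abs_neg]
      exact (P.v1 h1 h2 hq hq'c he).trans (by gcongr)
    D2 := fun x ξ ξ' h1 h2 q hq z z' z1 z2 w1 w2 => by
      obtain ⟨q', hq', he⟩ := P.ex h1 h2 hq
      have hq'c : q' ∈ closedBall q ρ := ball_subset_closedBall hq'
      have hk : 0 ≤ kk W x ξ ξ' q := norm_nonneg _
      rw [P.val hq hq'c he z1 z2 w1 w2]
      exact (P.v2 h1 h2 hq hq'c he).trans (by gcongr) }

theorem exists_DH : ∃ r ρ ε c M, DH W r ρ ε c M := by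
  obtain ⟨r, hr, hr1, htr⟩ := exists_trans W
  exact ⟨r, exists_DH_of W hr (hr1.trans (by norm_num)) htr⟩

/-- the theorem on the disc of radius `3 / 2`, if the discs are transversal -/
theorem exists_DH_nu (hn : ∀ x, ∀ q ∈ ball (0 : E2) 3, 0 < W.nu x (L.em x) q) :
    ∃ ρ ε c M, DH W (3 / 2) ρ ε c M :=
  exists_DH_of W (by norm_num) le_rfl fun x q hq => hn x q (mem_ball_of_cb (by norm_num) hq)

end Vale.Agent.P207.N4.H957
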