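import Vale.Agent.P207.N4.H957.DHc

/-!
# P207: the stable holonomy in the Darboux chart: the tensor `N`, continuity of the crossing point

* `N_eq`: `T.N x q = c₀ • (HH x (em x) q)⁻¹ + Rb x x q` (`link` for `y = x`);
* `hq`, `hq_cont`: the crossing point `q' = hq x ξ ξ' q` and its joint continuity;
* `hq_N`: `hq x (em x) ξ q = q - c₀⁻¹ (N x q - Rb x x q) π + O(|π|² + κ |π|)`.
-/

set_option linter.unusedSectionVars false

open Set Filter Topology Metric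
open scoped ContDiff

noncomputable section

namespace Vale.Agent.P207.N4.H957

open Vale.Agent.P207.N3 Vale.Agent.P207.N4.Ten Vale.Agent.P207.H957

variable [Dim]

variable {Γ X B : Type} [Group Γ] [MetricSpace X] [ProperSpace X] [MulAction Γ X]
  [IsIsometricSMul Γ X] [TopologicalSpace B] [CompactSpace B] [T2Space B] [MulAction Γ B]
  [ContinuousConstSMul Γ B] {L : Leaf Γ X B} {T : Tens L} (W : Bus L T)

/-! ### the tensor -/

theorem mem_sgD {x : X} {q : E2} (hq : q ∈ ball (0 : E2) 3) : ((x, x), q) ∈ sgD L W.en :=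
  ⟨hq, q, hq, (W.en_em x q hq).symm⟩

theorem sgm_self {x : X} {q : E2} (hq : q ∈ ball (0 : E2) 3) : sgm L W.en x x q = q := by
  unfold sgm
  rw [W.en_em x q hq]
  have h1 : L.e x q ∈ L.e x '' closedBall 0 3 := ⟨q, ball_sub hq, rfl⟩
  exact L.e_inj x (Function.invFunOn_mem h1) (ball_sub hq) (Function.invFunOn_eq h1)

theorem sgm_fderiv {x : X} {q : E2} (hq : q ∈ ball (0 : E2) 3) :
    fderiv ℝ (sgm L W.en x x) q = ContinuousLinearMap.id ℝ E2 := by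
  have h : sgm L W.en x x =ᶠ[𝓝 q] id := by
    filter_upwards [isOpen_ball.mem_nhds hq] with s hs
    exact sgm_self W hs
  rw [h.fderiv_eq, fderiv_id]

theorem N_eq {x : X} {q : E2} (hq : q ∈ ball (0 : E2) 3) (hnu : W.nu x (L.em x) q ≠ 0) :
    T.N x q = W.c₀ • Ring.inverse (HH W x (L.em x) q) + W.Rb x x q := by
  have h := W.link x x q (mem_sgD W hq) hnu
  rw [sgm_self W hq, sgm_fderiv W hq] at h
  have h2 : ContinuousLinearMap.adjoint (ContinuousLinearMap.id ℝ E2)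
      = ContinuousLinearMap.id ℝ E2 := by
    have := ContinuousLinearMap.star_eq_adjoint (ContinuousLinearMap.id ℝ E2)
    rw [← this]
    exact star_one (E2 →L[ℝ] E2)
  rw [h, h2]
  rfl

/-! ### the crossing point -/

/-- the crossing point -/
def hq (ρ : ℝ) (x : X) (ξ ξ' : B) (q : E2) : E2 := by
  classical
  exact if h : ∃ q' ∈ ball q ρ, W.en x ξ' q' = W.en x ξ q then h.choose else q

theorem hq_spec {ρ : ℝ} {x : X} {ξ ξ' : B} {q : E2}
    (h : ∃ q' ∈ ball q ρ, W.en x ξ' q' = W.en x ξ q) :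
    hq W ρ x ξ ξ' q ∈ ball q ρ ∧ W.en x ξ' (hq W ρ x ξ ξ' q) = W.en x ξ q := by
  unfold hq
  rw [dif_pos h]
  exact ⟨h.choose_spec.1, h.choose_spec.2⟩

namespace DH

variable {W} {r ρ ε c M : ℝ} (P : DH W r ρ ε c M)

include P

theorem hq_mem {x : X} {ξ ξ' : B} (h1 : Nr W ε x ξ) (h2 : Nr W ε x ξ') {q : E2}
    (hq0 : q ∈ closedBall (0 : E2) r) : hq W ρ x ξ ξ' q ∈ ball q ρ :=
  (hq_spec W (P.hol x ξ ξ' h1 h2 q hq0)).1

theorem hq_en {x : X} {ξ ξ' : B} (h1 : Nr W ε x ξ) (h2 : Nr W ε x ξ') {q : E2}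
    (hq0 : q ∈ closedBall (0 : E2) r) : W.en x ξ' (hq W ρ x ξ ξ' q) = W.en x ξ q :=
  (hq_spec W (P.hol x ξ ξ' h1 h2 q hq0)).2

theorem hq_unique {x : X} {ξ ξ' : B} (h1 : Nr W ε x ξ) (h2 : Nr W ε x ξ') {q : E2}
    (hq0 : q ∈ closedBall (0 : E2) r) {q' : E2} (hq' : q' ∈ closedBall q ρ)
    (he : W.en x ξ' q' = W.en x ξ q) : q' = hq W ρ x ξ ξ' q :=
  P.uniq x ξ ξ' h1 h2 q hq0 q' hq' _ (ball_subset_closedBall (P.hq_mem h1 h2 hq0)) he
    (P.hq_en h1 h2 hq0)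

theorem hq_self {x : X} {ξ : B} (h1 : Nr W ε x ξ) {q : E2}
    (hq0 : q ∈ closedBall (0 : E2) r) : hq W ρ x ξ ξ q = q :=
  (P.hq_unique h1 h1 hq0 (mem_closedBall_self P.ρ_pos.le) rfl).symm

theorem hq_sub {x : X} {ξ ξ' : B} (h1 : Nr W ε x ξ) (h2 : Nr W ε x ξ') {q : E2}
    (hq0 : q ∈ closedBall (0 : E2) r) : ‖hq W ρ x ξ ξ' q - q‖ ≤ M * ‖pp W x ξ ξ' q‖ :=
  P.hol1 x ξ ξ' h1 h2 q hq0 _ (ball_subset_closedBall (P.hq_mem h1 h2 hq0)) (P.hq_en h1 h2 hq0)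

/-- `Nr` is an open condition near `Nr` (strict version) -/
theorem in3 {q : E2} (hq0 : q ∈ closedBall (0 : E2) r) {s : E2} (hs : s ∈ closedBall q ρ) :
    s ∈ ball (0 : E2) 3 := by
  have h1 := P.r_le
  have h2 := P.ρ_le
  rw [mem_closedBall_zero_iff] at hq0
  rw [mem_closedBall, dist_eq_norm] at hs
  rw [mem_ball_zero_iff]
  calc ‖s‖ = ‖q + (s - q)‖ := by congr 1; abel
    _ ≤ ‖q‖ + ‖s - q‖ := norm_add_le _ _
    _ < 3 := by linarith

/-- the second order expansion of the holonomy with the tensor `N` -/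
theorem hq_N {x : X} {ξ : B} (h2 : Nr W ε x ξ) {q : E2} (hq0 : q ∈ closedBall (0 : E2) r) :
    ‖hq W ρ x (L.em x) ξ q - q
        + (W.c₀⁻¹ • (T.N x q - W.Rb x x q)) (pp W x (L.em x) ξ q)‖
      ≤ M / c * (‖pp W x (L.em x) ξ q‖ ^ 2
        + kk W x (L.em x) ξ q * ‖pp W x (L.em x) ξ q‖) := by
  have h1 : Nr W ε x (L.em x) := Nr_em W P.ε_pos x
  have hm := ball_subset_closedBall (P.hq_mem h1 h2 hq0)
  have hq3 : q ∈ ball (0 : E2) 3 := P.in3 hq0 (mem_closedBall_self P.ρ_pos.le)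
  have h3 := P.hol2 x (L.em x) ξ h1 h2 q hq0 _ hm (P.hq_en h1 h2 hq0)
  obtain ⟨i1, -, i3⟩ := inv_of_pos P.c_pos (P.pos x (L.em x) h1 q hq0)
  have hN := N_eq W hq3 (P.tr x (L.em x) h1 q hq0 q (mem_closedBall_self P.ρ_pos.le)).ne'
  have e : W.c₀⁻¹ • (T.N x q - W.Rb x x q) = Ring.inverse (HH W x (L.em x) q) := by
    rw [hN, add_sub_cancel_right, smul_smul, inv_mul_cancel₀ W.c₀_pos.ne', one_smul]
  rw [e]
  have e2 : hq W ρ x (L.em x) ξ q - q
      + Ring.inverse (HH W x (L.em x) q) (pp W x (L.em x) ξ q)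
      = Ring.inverse (HH W x (L.em x) q) (HH W x (L.em x) q (hq W ρ x (L.em x) ξ q - q)
        + pp W x (L.em x) ξ q) := by
    rw [map_add, i1]
  rw [e2]
  refine (i3 _).trans ?_
  rw [div_mul_eq_mul_div]
  have := P.c_pos
  gcongr

/-- the same with the covector at the crossing point -/
theorem hq_N' {x : X} {ξ : B} (h2 : Nr W ε x ξ) {q : E2} (hq0 : q ∈ closedBall (0 : E2) r) :
    ‖hq W ρ x (L.em x) ξ q - q
        + (W.c₀⁻¹ • (T.N x q - W.Rb x x q)) (pp W x (L.em x) ξ (hq W ρ x (L.em x) ξ q))‖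
      ≤ M / c * ‖pp W x (L.em x) ξ q‖ ^ 2 := by
  have h1 : Nr W ε x (L.em x) := Nr_em W P.ε_pos x
  have hm := ball_subset_closedBall (P.hq_mem h1 h2 hq0)
  have hq3 : q ∈ ball (0 : E2) 3 := P.in3 hq0 (mem_closedBall_self P.ρ_pos.le)
  have h3 := P.hol2' x (L.em x) ξ h1 h2 q hq0 _ hm (P.hq_en h1 h2 hq0)
  obtain ⟨i1, -, i3⟩ := inv_of_pos P.c_pos (P.pos x (L.em x) h1 q hq0)
  have hN := N_eq W hq3 (P.tr x (L.em x) h1 q hq0 q (mem_closedBall_self P.ρ_pos.le)).ne'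
  have e : W.c₀⁻¹ • (T.N x q - W.Rb x x q) = Ring.inverse (HH W x (L.em x) q) := by
    rw [hN, add_sub_cancel_right, smul_smul, inv_mul_cancel₀ W.c₀_pos.ne', one_smul]
  rw [e]
  have e2 : hq W ρ x (L.em x) ξ q - q
      + Ring.inverse (HH W x (L.em x) q) (pp W x (L.em x) ξ (hq W ρ x (L.em x) ξ q))
      = Ring.inverse (HH W x (L.em x) q) (HH W x (L.em x) q (hq W ρ x (L.em x) ξ q - q)
        + pp W x (L.em x) ξ (hq W ρ x (L.em x) ξ q)) := by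
    rw [map_add, i1]
  rw [e2]
  refine (i3 _).trans ?_
  rw [div_mul_eq_mul_div]
  have := P.c_pos
  gcongr

/-- the crossing point is a jointly continuous function, on the set where the leaves are near -/
theorem hq_cont : ContinuousOn (fun p : (X × (B × B)) × E2 => hq W ρ p.1.1 p.1.2.1 p.1.2.2 p.2)
    {p | Nr W ε p.1.1 p.1.2.1 ∧ Nr W ε p.1.1 p.1.2.2 ∧ p.2 ∈ closedBall (0 : E2) r} := by
  rintro ⟨⟨x, ⟨ξ, ξ'⟩⟩, q⟩ ⟨h1, h2, h3⟩
  simp only at h1 h2 h3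
  set S := {p : (X × (B × B)) × E2 | Nr W ε p.1.1 p.1.2.1 ∧ Nr W ε p.1.1 p.1.2.2 ∧
    p.2 ∈ closedBall (0 : E2) r} with hS
  set p₀ : (X × (B × B)) × E2 := ((x, (ξ, ξ')), q) with hp₀
  -- the values lie in a compact set; every cluster point is the crossing point
  have hK : IsCompact (closedBall (0 : E2) 2) := isCompact_closedBall _ _
  have hin : ∀ᶠ p in 𝓝[S] p₀, hq W ρ p.1.1 p.1.2.1 p.1.2.2 p.2 ∈ closedBall (0 : E2) 2 := by
    filter_upwards [self_mem_nhdsWithin] with p hp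
    have h4 := ball_subset_closedBall (P.hq_mem hp.1 hp.2.1 hp.2.2)
    have h5 := P.r_le
    have h6 := P.ρ_le
    have h7 := hp.2.2
    rw [mem_closedBall_zero_iff] at h7 ⊢
    rw [mem_closedBall, dist_eq_norm] at h4
    calc ‖hq W ρ p.1.1 p.1.2.1 p.1.2.2 p.2‖
        = ‖p.2 + (hq W ρ p.1.1 p.1.2.1 p.1.2.2 p.2 - p.2)‖ := by congr 1; abel
      _ ≤ ‖p.2‖ + ‖hq W ρ p.1.1 p.1.2.1 p.1.2.2 p.2 - p.2‖ := norm_add_le _ _
      _ ≤ 2 := by linarith
  refine hK.tendsto_nhds_of_unique_mapClusterPt hin fun s _ hs => ?_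
  obtain ⟨U, hU, hUs⟩ := mapClusterPt_iff_ultrafilter.1 hs
  have hUp : Tendsto id (U : Filter ((X × (B × B)) × E2)) (𝓝 p₀) :=
    (hU.trans nhdsWithin_le_nhds)
  have hUS : ∀ᶠ p in (U : Filter ((X × (B × B)) × E2)), p ∈ S := hU self_mem_nhdsWithin
  have t1 : Tendsto (fun p : (X × (B × B)) × E2 => p.1.1) U (𝓝 x) :=
    ((continuous_fst.comp continuous_fst).tendsto p₀).comp hUp
  have t2 : Tendsto (fun p : (X × (B × B)) × E2 => p.1.2.1) U (𝓝 ξ) :=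
    ((by fun_prop : Continuous fun p : (X × (B × B)) × E2 => p.1.2.1).tendsto p₀).comp hUp
  have t3 : Tendsto (fun p : (X × (B × B)) × E2 => p.1.2.2) U (𝓝 ξ') :=
    ((by fun_prop : Continuous fun p : (X × (B × B)) × E2 => p.1.2.2).tendsto p₀).comp hUp
  have t4 : Tendsto (fun p : (X × (B × B)) × E2 => p.2) U (𝓝 q) :=
    (continuous_snd.tendsto p₀).comp hUp
  have hsq : s ∈ closedBall q ρ := by
    rw [mem_closedBall]
    refine le_of_tendsto (hUs.dist t4) ?_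
    filter_upwards [hUS] with p hp
    exact (ball_subset_closedBall (P.hq_mem hp.1 hp.2.1 hp.2.2))
  have hs3 : s ∈ ball (0 : E2) 3 := P.in3 h3 hsq
  have hq3 : q ∈ ball (0 : E2) 3 := P.in3 h3 (mem_closedBall_self P.ρ_pos.le)
  have hopen : IsOpen ((univ : Set (X × B)) ×ˢ ball (0 : E2) 3) := isOpen_univ.prod isOpen_ball
  have c1 : ContinuousAt (fun p : (X × B) × E2 => W.en p.1.1 p.1.2 p.2) ((x, ξ'), s) :=
    W.en_cont.continuousAt (hopen.mem_nhds ⟨mem_univ _, hs3⟩)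
  have c2 : ContinuousAt (fun p : (X × B) × E2 => W.en p.1.1 p.1.2 p.2) ((x, ξ), q) :=
    W.en_cont.continuousAt (hopen.mem_nhds ⟨mem_univ _, hq3⟩)
  have l1 : Tendsto (fun p : (X × (B × B)) × E2 =>
      W.en p.1.1 p.1.2.2 (hq W ρ p.1.1 p.1.2.1 p.1.2.2 p.2)) U (𝓝 (W.en x ξ' s)) :=
    c1.tendsto.comp ((t1.prodMk_nhds t3).prodMk_nhds hUs)
  have l2 : Tendsto (fun p : (X × (B × B)) × E2 => W.en p.1.1 p.1.2.1 p.2) U
      (𝓝 (W.en x ξ q)) := c2.tendsto.comp ((t1.prodMk_nhds t2).prodMk_nhds t4)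
  have l3 : Tendsto (fun p : (X × (B × B)) × E2 => W.en p.1.1 p.1.2.1 p.2) U
      (𝓝 (W.en x ξ' s)) := by
    refine l1.congr' ?_
    filter_upwards [hUS] with p hp
    exact P.hq_en hp.1 hp.2.1 hp.2.2
  exact P.hq_unique h1 h2 h3 hsq (tendsto_nhds_unique l3 l2)

end DH

end Vale.Agent.P207.N4.H957
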